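import Mathlib.Algebra.BigOperators.Fin
import Mathlib.Algebra.BigOperators.Ring.Finset
import Mathlib.Tactic.Ring
import Vale.Agent.P372.Data

/-! Finite numerical checks for the entangled example of P372. -/

namespace Vale.Agent.P372

/-- Entry of an integer table. -/
def zget (T : List (List ℤ)) (i j : ℕ) : ℤ := (T.getD i []).getD j 0

/-- Entry of a natural-number table. -/
def nget (T : List (List ℕ)) (i j : ℕ) : ℕ := (T.getD i []).getD j 0

/-- Dot product of integer lists. -/
def ldot : List ℤ → List ℤ → ℤ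
  | a :: l, b :: m => a * b + ldot l m
  | _, _ => 0

lemma ldot_eq_sum : ∀ (n : ℕ) (l m : List ℤ), l.length = n → m.length = n →
    ldot l m = ∑ i : Fin n, l.getD i 0 * m.getD i 0
  | 0, [], [], _, _ => by simp [ldot]
  | n + 1, a :: l, b :: m, h, h' => by
    rw [Fin.sum_univ_succ, ldot, ldot_eq_sum n l m (by simpa using h) (by simpa using h')]
    simp

/-- The weights. -/
def wt6 (e : Fin 6) : ℕ := wD.getD e 0

/-- The six matrices. -/
def K6 (e : Fin 6) (a c : Fin 4) : ℤ := zget KD e (4 * a + c)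

/-- The nodes. -/
def node (s : Fin 35) (a : Fin 4) : ℤ := zget yD s a

/-- First variable of a quadratic monomial. -/
def pr1 (m : Fin 10) : Fin 4 := ([0, 0, 0, 0, 1, 1, 1, 2, 2, 3] : List (Fin 4)).getD m 0

/-- Second variable of a quadratic monomial. -/
def pr2 (m : Fin 10) : Fin 4 := ([0, 1, 2, 3, 1, 2, 3, 2, 3, 3] : List (Fin 4)).getD m 0

/-- Quadratic monomials. -/
def mon {R : Type} [Mul R] (x : Fin 4 → R) (m : Fin 10) : R := x (pr1 m) * x (pr2 m)

/-- The determinant of four vectors. -/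
def det4 {R : Type} [CommRing R] (a b c d : Fin 4 → R) : R :=
  (a 0 * b 1 - a 1 * b 0) * (c 2 * d 3 - c 3 * d 2)
    - (a 0 * b 2 - a 2 * b 0) * (c 1 * d 3 - c 3 * d 1)
    + (a 0 * b 3 - a 3 * b 0) * (c 1 * d 2 - c 2 * d 1)
    + (a 1 * b 2 - a 2 * b 1) * (c 0 * d 3 - c 3 * d 0)
    - (a 1 * b 3 - a 3 * b 1) * (c 0 * d 2 - c 2 * d 0)
    + (a 2 * b 3 - a 3 * b 2) * (c 0 * d 1 - c 1 * d 0)

/-- Image of a node under one of the six matrices, from the table. -/
def ky (s : Fin 35) (e : ℕ) (c : Fin 4) : ℤ := zget kyD s (4 * e + c)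

/-- The points modulo the prime. -/
def pt (j : ℕ) (a : Fin 4) : ℕ := nget ptD j a

theorem check_inv : ∀ a a' c c' : Fin 4,
    ∑ e : Fin 6, (wt6 e : ℤ) * (K6 e a' c' * K6 e a c)
      = ∑ e : Fin 6, (wt6 e : ℤ) * (K6 e a' c * K6 e a c') := by
  decide +kernel

theorem check_wt : ∀ e : Fin 6, 0 < wt6 e := by decide +kernel

theorem check_ky : ∀ (s : Fin 35) (e : Fin 6) (c : Fin 4),
    ky s e c = ∑ a : Fin 4, node s a * K6 e a c := by
  decide +kernel

theorem check_dt : ∀ (I : Fin 15) (s : Fin 35), zget dtD I s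
    = det4 (ky s (nget quadD I 0)) (ky s (nget quadD I 1)) (ky s (nget quadD I 2))
        (ky s (nget quadD I 3)) := by
  decide +kernel

theorem check_quad : ∀ e f g h : Fin 6, e < f ∧ f < g ∧ g < h → ∃ I : Fin 15,
    quadD.getD I [] = [e.val, f.val, g.val, h.val] := by
  decide +kernel

theorem check_cols : ∀ (j : Fin 9) (m : Fin 10),
    (∑ i : Fin 10, nget colsD j i * mon (pt i) m) % 2980931 = mon (pt (10 + j)) m % 2980931 := by
  decide +kernel

theorem check_cols_len : colsD.length = 9 ∧ ∀ c ∈ colsD, c.length = 10 := by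
  decide +kernel

theorem check_len : (∀ j : Fin 19, (nuD.getD j []).length = 35) ∧
    (∀ I : Fin 15, (dtD.getD I []).length = 35) ∧ (∀ a : Fin 35, (moD.getD a []).length = 35) ∧
    (∀ m m' : Fin 10, nget ixD m m' < 35) := by
  decide +kernel

theorem check_ker : ∀ (j : Fin 19) (I : Fin 15), ldot (nuD.getD j []) (dtD.getD I []) = 0 := by
  decide +kernel

theorem check_mo : ∀ (m m' : Fin 10) (s : Fin 35),
    mon (node s) m * mon (node s) m' = zget moD (nget ixD m m') s := by
  decide +kernel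

theorem check_tb : ∀ (j : Fin 19) (a : Fin 35),
    ldot (nuD.getD j []) (moD.getD a []) % 2980931 = (nget tbD j a : ℤ) := by
  decide +kernel

theorem check_pt : ∀ (j : Fin 19) (m m' : Fin 10),
    nget tbD j (nget ixD m m') = mon (pt j) m * mon (pt j) m' % 2980931 := by
  decide +kernel

theorem check_invD : ∀ m m' : Fin 10,
    (∑ i : Fin 10, nget invD m i * mon (pt i) m') % 2980931 = if m = m' then 1 else 0 := by
  decide +kernel

theorem check_nz : zget dtD 0 1 ≠ 0 := by decide +kernel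

end Vale.Agent.P372
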