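import Vale.Agent.P372.MatLem

/-! The class of linked states and the key inequality for P372. -/

namespace Vale.Agent.P372

open Matrix
open scoped Kronecker ComplexOrder MatrixOrder

/-- A Kraus family whose Choi matrix is invariant under partial transposition. -/
def Inv {A C R : Type} [Fintype R] (M : R → Matrix A C ℂ) : Prop :=
  ∀ a a' c c', ∑ r, star (M r a' c') * M r a c = ∑ r, star (M r a' c) * M r a c'

/-- The Heisenberg-picture map of a Kraus family. -/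
noncomputable def pull {A C R : Type} [Fintype A] [Fintype R] (M : R → Matrix A C ℂ)
    (P : Matrix A A ℂ) : Matrix C C ℂ :=
  ∑ r, (M r)ᴴ * P * M r

/-- The family of Kronecker products. -/
def kronFam {A B C D R R' : Type} (M : R → Matrix A C ℂ) (M' : R' → Matrix B D ℂ) :
    R × R' → Matrix (A × B) (C × D) ℂ :=
  fun r => M r.1 ⊗ₖ M' r.2

/-- States obtained from a vector by two local maps with invariant Kraus families. -/
def Linked {A B : Type} (ρ : Matrix (A × B) (A × B) ℂ) : Prop :=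
  ∃ (C D R R' : Type) (_ : Fintype C) (_ : Fintype D) (_ : Fintype R) (_ : Fintype R')
    (M : R → Matrix A C ℂ) (M' : R' → Matrix B D ℂ) (ω : C × D → ℂ),
    Inv M ∧ Inv M' ∧
      ρ = ∑ r, vecMulVec (kronFam M M' r *ᵥ ω) (star (kronFam M M' r *ᵥ ω))

section

variable {A B C D R R' : Type} [Fintype A] [Fintype B] [Fintype C] [Fintype D] [Fintype R]
  [Fintype R']

omit [Fintype A] [Fintype B] [Fintype C] [Fintype D] in
lemma Inv.kron {M : R → Matrix A C ℂ} {M' : R' → Matrix B D ℂ} (h : Inv M) (h' : Inv M') :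
    Inv (kronFam M M') := by
  intro a a' c c'
  have e : ∀ (u v : C × D), ∑ r, star (kronFam M M' r a' u) * kronFam M M' r a v
      = (∑ r, star (M r a'.1 u.1) * M r a.1 v.1) * ∑ r, star (M' r a'.2 u.2) * M' r a.2 v.2 := by
    intro u v
    rw [Fintype.sum_prod_type, Finset.sum_mul_sum]
    refine Finset.sum_congr rfl fun r _ => Finset.sum_congr rfl fun r' _ => ?_
    simp only [kronFam, kroneckerMap_apply, star_mul']
    ring
  rw [e, e, h, h']

omit [Fintype C] in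
lemma pull_apply (M : R → Matrix A C ℂ) (P : Matrix A A ℂ) (c' c : C) :
    pull M P c' c = ∑ a, ∑ a', P a' a * ∑ r, star (M r a' c') * M r a c := by
  simp only [pull, Matrix.sum_apply, Matrix.mul_apply, conjTranspose_apply, Finset.sum_mul,
    Finset.mul_sum]
  rw [Finset.sum_comm]
  refine Finset.sum_congr rfl fun a _ => ?_
  rw [Finset.sum_comm]
  refine Finset.sum_congr rfl fun a' _ => Finset.sum_congr rfl fun r _ => ?_
  ring

omit [Fintype C] in
lemma Inv.pull_symm {M : R → Matrix A C ℂ} (h : Inv M) (P : Matrix A A ℂ) :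
    (pull M P)ᵀ = pull M P := by
  ext c' c
  rw [transpose_apply, pull_apply, pull_apply]
  refine Finset.sum_congr rfl fun a _ => Finset.sum_congr rfl fun a' _ => ?_
  rw [h]

omit [Fintype C] [Fintype D] in
lemma pull_kron (M : R → Matrix A C ℂ) (M' : R' → Matrix B D ℂ) (P : Matrix A A ℂ)
    (Q : Matrix B B ℂ) : pull (kronFam M M') (P ⊗ₖ Q) = pull M P ⊗ₖ pull M' Q := by
  unfold pull
  rw [Fintype.sum_prod_type]
  simp only [kronFam, conjTranspose_kronecker, ← mul_kronecker_mul]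
  ext x y
  simp only [Matrix.sum_apply, kroneckerMap_apply, Finset.sum_mul_sum]

lemma pull_posSemidef (M : R → Matrix A C ℂ) {P : Matrix A A ℂ} (hP : P.PosSemidef) :
    (pull M P).PosSemidef :=
  posSemidef_sum _ fun r _ => hP.conjTranspose_mul_mul_same (M r)

lemma trace_mul_vecMulVec (Θ : Matrix A A ℂ) (v : A → ℂ) :
    (Θ * vecMulVec v (star v)).trace = star v ⬝ᵥ Θ *ᵥ v := by
  simp only [trace, diag_apply, Matrix.mul_apply, vecMulVec_apply, dotProduct, mulVec,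
    Finset.mul_sum]
  refine Finset.sum_congr rfl fun a _ => Finset.sum_congr rfl fun a' _ => ?_
  ring

lemma re_trace_mul_sum (X : R → Matrix A C ℂ) (ω : C → ℂ) (Θ : Matrix A A ℂ) :
    (Θ * ∑ r, vecMulVec (X r *ᵥ ω) (star (X r *ᵥ ω))).trace.re = qf (pull X Θ) ω ω := by
  rw [Matrix.mul_sum, trace_sum, Complex.re_sum, pull, qf_sum]
  refine Finset.sum_congr rfl fun r _ => ?_
  rw [trace_mul_vecMulVec, qf_congr]
  rfl

lemma Linked.key {ρ : Matrix (A × B) (A × B) ℂ} (hρ : Linked ρ) {P0 P1 : Matrix A A ℂ}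
    {Q0 Q1 : Matrix B B ℂ} (hP0 : P0.PosSemidef) (hP1 : P1.PosSemidef) (hQ0 : Q0.PosSemidef)
    (hQ1 : Q1.PosSemidef) (Γ : Matrix (A × B) (A × B) ℂ) (hΓ : Dom (P0 ⊗ₖ Q0) Γ (P1 ⊗ₖ Q1)) :
    2 * (Γ * ρ).trace.re ≤ ((P0 ⊗ₖ Q1) * ρ).trace.re + ((P1 ⊗ₖ Q0) * ρ).trace.re := by
  classical
  obtain ⟨C, D, R, R', _, _, _, _, M, M', ω, hM, hM', rfl⟩ := hρ
  have hX := hM.kron hM'
  have d1 : Dom (pull (kronFam M M') (P0 ⊗ₖ Q0)) (pull (kronFam M M') Γ)
      (pull (kronFam M M') (P1 ⊗ₖ Q1)) := Dom.sum _ fun r => hΓ.congr _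
  have d2 := d1.herm (hX.pull_symm _) (hX.pull_symm _) (hX.pull_symm _)
  rw [pull_kron, pull_kron] at d2
  have hH : (((1 / 2 : ℝ) : ℂ) • (pull (kronFam M M') Γ + (pull (kronFam M M') Γ)ᴴ)).IsHermitian := by
    unfold IsHermitian
    rw [conjTranspose_smul, conjTranspose_add, conjTranspose_conjTranspose, add_comm]
    simp
  have d3 := gm (pull_posSemidef M hP0) (pull_posSemidef M hP1) (pull_posSemidef M' hQ0)
    (pull_posSemidef M' hQ1) hH d2 ω
  rw [qf_smul, qf_add, qf_conjTranspose] at d3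
  rw [re_trace_mul_sum, re_trace_mul_sum, re_trace_mul_sum, pull_kron, pull_kron]
  linarith

end

section eve

variable {X E : Type} [Fintype X] [Fintype E] [DecidableEq X] [DecidableEq E]

lemma exists_root (Ψ : Matrix X E ℂ) {D : Matrix X X ℂ} (hD : D.PosSemidef) :
    ∃ (R : Matrix E E ℂ) (W : Matrix E X ℂ), R.PosSemidef ∧ R * R = Ψᴴ * D * Ψ ∧ W * Ψ = R ∧
      (D - Wᴴ * W).PosSemidef := by
  have hF := hD.conjTranspose_mul_mul_same Ψ
  set R := CFC.sqrt (Ψᴴ * D * Ψ) with hRdef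
  have hR : R.PosSemidef := (CFC.sqrt_nonneg _).posSemidef
  have hRR : R * R = Ψᴴ * D * Ψ := CFC.sqrt_mul_sqrt_self _ hF.nonneg
  clear_value R
  obtain ⟨G, hG, hc, h1, h2⟩ := exists_pinv hR.1
  refine ⟨R, G * Ψᴴ * D, hR, hRR, ?_, ?_⟩
  · calc G * Ψᴴ * D * Ψ = G * (Ψᴴ * D * Ψ) := by simp only [Matrix.mul_assoc]
      _ = R := by rw [← hRR, ← Matrix.mul_assoc, ← hc, h1]
  · have a := hD.conjTranspose_mul_mul_same (1 - Ψ * G * G * Ψᴴ * D)
    have e1 : G * G * (Ψᴴ * D * Ψ) * G * G = G * G := by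
      rw [← hRR]
      calc G * G * (R * R) * G * G = G * (G * R) * (R * G) * G := by simp only [Matrix.mul_assoc]
        _ = G * (R * G) * (R * G) * G := by rw [← hc]
        _ = (G * R * G) * R * G * G := by simp only [Matrix.mul_assoc]
        _ = G * G := by rw [h2, h2]
    have e2 : (1 - Ψ * G * G * Ψᴴ * D)ᴴ * D * (1 - Ψ * G * G * Ψᴴ * D)
        = D - (G * Ψᴴ * D)ᴴ * (G * Ψᴴ * D) - (G * Ψᴴ * D)ᴴ * (G * Ψᴴ * D)
          + D * Ψ * (G * G * (Ψᴴ * D * Ψ) * G * G) * Ψᴴ * D := by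
      simp only [conjTranspose_sub, conjTranspose_one, conjTranspose_mul,
        conjTranspose_conjTranspose, hG.eq, hD.1.eq, Matrix.sub_mul, Matrix.mul_sub,
        Matrix.one_mul, Matrix.mul_one, Matrix.mul_assoc]
      abel
    have e3 : D * Ψ * (G * G) * Ψᴴ * D = (G * Ψᴴ * D)ᴴ * (G * Ψᴴ * D) := by
      simp only [conjTranspose_mul, conjTranspose_conjTranspose, hG.eq, hD.1.eq, Matrix.mul_assoc]
    rw [e2, e1, e3, sub_add_cancel] at a
    exact a

lemma exists_eve_test (Ψ : Matrix X E ℂ) {D0 D1 : Matrix X X ℂ} (h0 : D0.PosSemidef)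
    (h1 : D1.PosSemidef) (b : ℝ)
    (hb : ∀ Γ, Dom D0 Γ D1 → 2 * (Γ * (Ψ * Ψᴴ)).trace.re ≤ b) :
    ∃ S : Matrix E E ℂ, S.IsHermitian ∧ S * S = 1 ∧
      (Ψᴴ * D0 * Ψ).trace.re + (Ψᴴ * D1 * Ψ).trace.re - b
        ≤ (S * (Ψᴴ * D0 * Ψ)).trace.re - (S * (Ψᴴ * D1 * Ψ)).trace.re := by
  obtain ⟨R0, W0, hR0, hRR0, hW0, hD0⟩ := exists_root Ψ h0
  obtain ⟨R1, W1, hR1, hRR1, hW1, hD1⟩ := exists_root Ψ h1
  obtain ⟨S, hS, hSS, h⟩ := powers_stormer hR0 hR1
  refine ⟨S, hS, hSS, ?_⟩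
  have a := hb _ ((Dom.of_gram W0 W1).mono hD0 hD1)
  have e : (R0 * R1).trace = (W1ᴴ * W0 * (Ψ * Ψᴴ)).trace := by
    have e1 : R1 = Ψᴴ * W1ᴴ := by rw [← conjTranspose_mul, hW1, hR1.1.eq]
    rw [Matrix.mul_assoc W1ᴴ, trace_mul_comm W1ᴴ, ← hW0, e1]
    simp only [Matrix.mul_assoc]
  rw [e, hRR0, hRR1, Matrix.mul_sub, trace_sub, Complex.sub_re] at h
  linarith

end eve

section power

variable {A B A' B' : Type}

lemma Inv.pow {C R : Type} [Fintype R] {M : R → Matrix A C ℂ} (h : Inv M) (n : ℕ)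
    (e : A' → Fin n → A) :
    Inv (fun (r : Fin n → R) => (Matrix.of fun (a : A') (c : Fin n → C) =>
      ∏ i, M (r i) (e a i) (c i))) := by
  intro a a' c c'
  have e1 : ∀ u v : Fin n → C,
      ∑ r : Fin n → R, star (∏ i, M (r i) (e a' i) (u i)) * ∏ i, M (r i) (e a i) (v i)
        = ∏ i, ∑ r, star (M r (e a' i) (u i)) * M r (e a i) (v i) := by
    intro u v
    rw [Fintype.prod_sum]
    refine Finset.sum_congr rfl fun r _ => ?_
    rw [star_prod, ← Finset.prod_mul_distrib]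
  simp only [Matrix.of_apply]
  rw [e1, e1]
  exact Finset.prod_congr rfl fun i _ => h _ _ _ _

lemma Linked.pow {ρ : Matrix (A × B) (A × B) ℂ} (hρ : Linked ρ) (n : ℕ)
    (e : A' → Fin n → A) (e' : B' → Fin n → B) :
    Linked (Matrix.of fun (x y : A' × B') =>
      ∏ i, ρ (e x.1 i, e' x.2 i) (e y.1 i, e' y.2 i)) := by
  classical
  obtain ⟨C, D, R, R', _, _, _, _, M, M', ω, hM, hM', rfl⟩ := hρ
  refine ⟨Fin n → C, Fin n → D, Fin n → R, Fin n → R', inferInstance, inferInstance,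
    inferInstance, inferInstance, _, _, fun cd => ∏ i, ω (cd.1 i, cd.2 i), hM.pow n e,
    hM'.pow n e', ?_⟩
  have e1 : ∀ (r : (Fin n → R) × (Fin n → R')) (x : A' × B'),
      (kronFam (fun (r : Fin n → R) => (Matrix.of fun (a : A') (c : Fin n → C) =>
          ∏ i, M (r i) (e a i) (c i)))
        (fun (r : Fin n → R') => (Matrix.of fun (a : B') (c : Fin n → D) =>
          ∏ i, M' (r i) (e' a i) (c i))) r *ᵥ fun cd => ∏ i, ω (cd.1 i, cd.2 i)) x
        = ∏ i, (kronFam M M' (r.1 i, r.2 i) *ᵥ ω) (e x.1 i, e' x.2 i) := by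
    intro r x
    simp only [mulVec, dotProduct, kronFam, kroneckerMap_apply, Matrix.of_apply]
    rw [Fintype.prod_sum,
      ← (Equiv.arrowProdEquivProdArrow (Fin n) (fun _ => C) (fun _ => D)).sum_comp]
    refine Finset.sum_congr rfl fun cd _ => ?_
    simp only [Equiv.arrowProdEquivProdArrow_apply, ← Finset.prod_mul_distrib]
  ext x y
  simp only [Matrix.of_apply, Matrix.sum_apply, vecMulVec_apply, Pi.star_apply, e1]
  rw [Fintype.prod_sum,
    ← (Equiv.arrowProdEquivProdArrow (Fin n) (fun _ => R) (fun _ => R')).sum_comp]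
  refine Finset.sum_congr rfl fun r _ => ?_
  simp only [Equiv.arrowProdEquivProdArrow_apply, star_prod, ← Finset.prod_mul_distrib]

end power

end Vale.Agent.P372
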