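import Vale.Agent.P372.Mds
import Vale.Agent.P372.Data

/-! The finite check of all minors for P372. -/

namespace Vale.Agent.P372

theorem chk_colsD : chk 2980931 10 colsD = true := by decide +kernel

end Vale.Agent.P372
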