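import Vale.Agent.P372.Defs
import Vale.Agent.P372.Core
import Vale.Agent.P372.Checks
import Vale.Agent.P372.MdsRun

/-! The entangled linked state of P372. -/

namespace Vale.Agent.P372

open Matrix
open scoped Kronecker ComplexOrder MatrixOrder

section det

variable {R : Type} [CommRing R]

lemma det4_swap12 (a b c d : Fin 4 → R) : det4 b a c d = -det4 a b c d := by
  unfold det4; ring

lemma det4_swap23 (a b c d : Fin 4 → R) : det4 a c b d = -det4 a b c d := by
  unfold det4; ring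

lemma det4_swap34 (a b c d : Fin 4 → R) : det4 a b d c = -det4 a b c d := by
  unfold det4; ring

/-- Standard basis vector. -/
def bv (R : Type) [CommRing R] (c : Fin 4) : Fin 4 → R := fun a => if a = c then 1 else 0

lemma det4_expand (a b c d : Fin 4 → R) :
    ∑ i, ∑ j, ∑ k, ∑ l, a i * b j * (c k * d l) * det4 (bv R i) (bv R j) (bv R k) (bv R l)
      = det4 a b c d := by
  have h1 : ∀ a b c d : Fin 4 → R, ∑ i, a i * det4 (bv R i) b c d = det4 a b c d := by
    intro a b c d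
    simp [Fin.sum_univ_four, det4, bv]
    ring
  have h2 : ∀ a b c d : Fin 4 → R, ∑ i, b i * det4 a (bv R i) c d = det4 a b c d := by
    intro a b c d
    simp [Fin.sum_univ_four, det4, bv]
    ring
  have h3 : ∀ a b c d : Fin 4 → R, ∑ i, c i * det4 a b (bv R i) d = det4 a b c d := by
    intro a b c d
    simp [Fin.sum_univ_four, det4, bv]
    ring
  have h4 : ∀ a b c d : Fin 4 → R, ∑ i, d i * det4 a b c (bv R i) = det4 a b c d := by
    intro a b c d
    simp [Fin.sum_univ_four, det4, bv]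
    ring
  rw [← h1 a b c d]
  refine Finset.sum_congr rfl fun i _ => ?_
  rw [← h2 (bv R i) b c d, Finset.mul_sum]
  refine Finset.sum_congr rfl fun j _ => ?_
  rw [← h3 (bv R i) (bv R j) c d, Finset.mul_sum, Finset.mul_sum]
  refine Finset.sum_congr rfl fun k _ => ?_
  rw [← h4 (bv R i) (bv R j) (bv R k) d, Finset.mul_sum, Finset.mul_sum, Finset.mul_sum]
  refine Finset.sum_congr rfl fun l _ => ?_
  ring

lemma det4_smul (s t u v : R) (a b c d : Fin 4 → R) :
    det4 (fun i => s * a i) (fun i => t * b i) (fun i => u * c i) (fun i => v * d i)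
      = s * t * u * v * det4 a b c d := by
  unfold det4; ring

lemma det4_cast (a b c d : Fin 4 → ℤ) :
    ((det4 a b c d : ℤ) : R)
      = det4 (fun i => (a i : R)) (fun i => (b i : R)) (fun i => (c i : R)) (fun i => (d i : R)) := by
  unfold det4; push_cast; ring

end det

lemma alt_zero (F : Fin 6 → Fin 6 → Fin 6 → Fin 6 → ℤ)
    (s12 : ∀ a b c d, F b a c d = -F a b c d) (s23 : ∀ a b c d, F a c b d = -F a b c d)
    (s34 : ∀ a b c d, F a b d c = -F a b c d)
    (h : ∀ a b c d, a < b → b < c → c < d → F a b c d = 0) : ∀ a b c d, F a b c d = 0 := by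
  have z12 : ∀ a c d, F a a c d = 0 := fun a c d => by have := s12 a a c d; omega
  have z23 : ∀ a b d, F a b b d = 0 := fun a b d => by have := s23 a b b d; omega
  have z34 : ∀ a b c, F a b c c = 0 := fun a b c => by have := s34 a b c c; omega
  have h1 : ∀ a b c d, a < b → b < c → F a b c d = 0 := by
    intro a b c d hab hbc
    rcases lt_trichotomy c d with hcd | rfl | hcd
    · exact h a b c d hab hbc hcd
    · exact z34 _ _ _
    · rw [s34]
      rcases lt_trichotomy b d with hbd | rfl | hbd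
      · rw [h a b d c hab hbd hcd, neg_zero]
      · rw [z23, neg_zero]
      · rw [s23]
        rcases lt_trichotomy a d with had | rfl | had
        · rw [h a d b c had hbd hbc, neg_zero, neg_zero]
        · rw [z12, neg_zero, neg_zero]
        · rw [s12, h d a b c had hab hbc, neg_zero, neg_zero, neg_zero]
  have h2 : ∀ a b c d, a < b → F a b c d = 0 := by
    intro a b c d hab
    rcases lt_trichotomy b c with hbc | rfl | hbc
    · exact h1 a b c d hab hbc
    · exact z23 _ _ _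
    · rw [s23]
      rcases lt_trichotomy a c with hac | rfl | hac
      · rw [h1 a c b d hac hbc, neg_zero]
      · rw [z12, neg_zero]
      · rw [s12, h1 c a b d hac hab, neg_zero, neg_zero]
  intro a b c d
  rcases lt_trichotomy a b with hab | rfl | hab
  · exact h2 a b c d hab
  · exact z12 _ _ _
  · rw [s12, h2 b a c d hab, neg_zero]

lemma ker_all (j : Fin 19) (e f g h : Fin 6) :
    ∑ s : Fin 35, zget nuD j s * det4 (ky s e) (ky s f) (ky s g) (ky s h) = 0 := by
  refine alt_zero (fun e f g h =>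
    ∑ s : Fin 35, zget nuD j s * det4 (ky s e) (ky s f) (ky s g) (ky s h)) ?_ ?_ ?_ ?_ e f g h
  · intro a b c d
    simp only [det4_swap12 (ky _ a) (ky _ b), mul_neg, Finset.sum_neg_distrib]
  · intro a b c d
    simp only [det4_swap23 (ky _ a) (ky _ b) (ky _ c), mul_neg, Finset.sum_neg_distrib]
  · intro a b c d
    simp only [det4_swap34 (ky _ a) (ky _ b) (ky _ c) (ky _ d), mul_neg, Finset.sum_neg_distrib]
  · intro a b c d h1 h2 h3
    obtain ⟨I, hI⟩ := check_quad a b c d ⟨h1, h2, h3⟩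
    have e1 := check_ker j I
    rw [ldot_eq_sum 35 _ _ (check_len.1 j) (check_len.2.1 I)] at e1
    rw [← e1]
    refine Finset.sum_congr rfl fun s _ => ?_
    have e2 := check_dt I s
    simp only [nget, hI] at e2
    exact congrArg₂ _ rfl e2.symm

/-- The kernel vectors. -/
def Lam (j : Fin 19) (m m' : Fin 10) : ℤ :=
  ∑ s : Fin 35, zget nuD j s * (mon (node s) m * mon (node s) m')

lemma Lam_cast {k : Type} [Field k] [CharP k 2980931] (j : Fin 19) (m m' : Fin 10) :
    (Lam j m m' : k) = ((mon (pt j) m : ℕ) : k) * ((mon (pt j) m' : ℕ) : k) := by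
  have hlt := check_len.2.2.2 m m'
  have e1 : Lam j m m' = ldot (nuD.getD j []) (moD.getD (nget ixD m m') []) := by
    rw [ldot_eq_sum 35 _ _ (check_len.1 j) (check_len.2.2.1 ⟨_, hlt⟩)]
    refine Finset.sum_congr rfl fun s _ => ?_
    rw [check_mo]
    rfl
  have e2 := check_tb j ⟨_, hlt⟩
  have e3 := check_pt j m m'
  have e4 : ∀ z : ℤ, ((z % 2980931 : ℤ) : k) = z := fun z => by
    have := CharP.intCast_eq_intCast_mod k 2980931 (a := z)
    exact_mod_cast this.symm
  rw [e1, ← e4, e2]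
  simp only [Int.cast_natCast]
  rw [e3, ← CharP.cast_eq_mod k 2980931, Nat.cast_mul]

theorem no_product_charP (k : Type) [Field k] [CharP k 2980931] (u v : Fin 10 → k) (hu : u ≠ 0)
    (hv : v ≠ 0) : ¬ ∀ j, ∑ m, ∑ m', (Lam j m m' : k) * u m * v m' = 0 := by
  intro H
  set q : (Fin 10 → k) → ℕ → k := fun u j => ∑ m, ((mon (pt j) m : ℕ) : k) * u m with hq
  have H1 : ∀ j < 19, q u j * q v j = 0 := by
    intro j hj
    rw [← H ⟨j, hj⟩, hq, Finset.sum_mul_sum]
    refine Finset.sum_congr rfl fun m _ => Finset.sum_congr rfl fun m' _ => ?_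
    rw [Lam_cast]
    ring
  have hne : ∀ u : Fin 10 → k, u ≠ 0 → ∃ i < 10, q u i ≠ 0 := by
    intro u hu
    by_contra hz
    push Not at hz
    apply hu
    funext m
    have e1 : ∀ m' : Fin 10, ∑ i : Fin 10, (nget invD m i : k) * ((mon (pt i) m' : ℕ) : k)
        = if m = m' then 1 else 0 := by
      intro m'
      have := congrArg (Nat.cast : ℕ → k) (check_invD m m')
      rw [← CharP.cast_eq_mod k 2980931] at this
      push_cast at this
      exact this
    have e2 : ∑ i : Fin 10, (nget invD m i : k) * q u i = u m := by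
      simp only [hq, Finset.mul_sum]
      rw [Finset.sum_comm]
      simp only [← mul_assoc, ← Finset.sum_mul, e1]
      simp
    rw [← e2]
    exact Finset.sum_eq_zero fun i _ => by rw [hz i i.2, mul_zero]
  have hdot : ∀ (u : Fin 10 → k) (j : Fin 9), dot (colsD.getD j []) (q u) = q u (10 + j) := by
    intro u j
    have hmem : colsD.getD j [] ∈ colsD := by
      rw [List.getD_eq_getElem _ _ (by rw [check_cols_len.1]; exact j.2)]
      exact List.getElem_mem _
    rw [dot_eq_sum 10 _ _ (check_cols_len.2 _ hmem)]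
    simp only [hq, Finset.mul_sum]
    rw [Finset.sum_comm]
    refine Finset.sum_congr rfl fun m _ => ?_
    have := congrArg (Nat.cast : ℕ → k) (check_cols j m)
    rw [← CharP.cast_eq_mod k 2980931, ← CharP.cast_eq_mod k 2980931] at this
    push_cast at this
    rw [← this, Finset.sum_mul]
    refine Finset.sum_congr rfl fun i _ => ?_
    rw [← mul_assoc]
    rfl
  refine no_pair 2980931 (by norm_num) 10 colsD check_cols_len.2 chk_colsD
    (by rw [check_cols_len.1]) (q u) (q v) (hne u hu) (hne v hv)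
    (fun i hi => H1 i (by omega)) fun c hc => ?_
  obtain ⟨j, hj, hjc⟩ := List.getElem_of_mem hc
  have hj9 : j < 9 := by rw [← check_cols_len.1]; exact hj
  have e : c = colsD.getD j [] := hjc.symm.trans (List.getD_eq_getElem _ _ hj).symm
  rw [e, hdot u ⟨j, hj9⟩, hdot v ⟨j, hj9⟩]
  exact H1 _ (by simp only; omega)

theorem no_product (u v : Fin 10 → ℂ) (hu : u ≠ 0) (hv : v ≠ 0) :
    ¬ ∀ j, ∑ m, ∑ m', (Lam j m m' : ℂ) * u m * v m' = 0 :=
  transfer 2980931 (by norm_num) Lam no_product_charP u v hu hv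

/-- The basic Kraus family. -/
noncomputable def M0 (e : Fin 6) : Matrix (Fin 4) (Fin 4) ℂ :=
  Matrix.of fun a c => ((Real.sqrt (wt6 e) : ℝ) : ℂ) * (K6 e a c : ℂ)

/-- Symmetrisation onto the ten quadratic monomials. -/
def Jm : Matrix (Fin 10) (Fin 4 × Fin 4) ℂ :=
  Matrix.of fun m a => if (pr1 m, pr2 m) = a ∨ (pr2 m, pr1 m) = a then 1 else 0

/-- The Kraus family on ten dimensions. -/
noncomputable def M1 (r : Fin 6 × Fin 6) : Matrix (Fin 10) (Fin 4 × Fin 4) ℂ :=
  Jm * kronFam M0 M0 r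

/-- The determinant tensor. -/
noncomputable def epsV (c : (Fin 4 × Fin 4) × (Fin 4 × Fin 4)) : ℂ :=
  det4 (bv ℂ c.1.1) (bv ℂ c.1.2) (bv ℂ c.2.1) (bv ℂ c.2.2)

lemma inv_M0 : Inv M0 := by
  intro a a' c c'
  have e : ∀ u v : Fin 4, ∑ r, star (M0 r a' u) * M0 r a v
      = ((∑ e : Fin 6, (wt6 e : ℤ) * (K6 e a' u * K6 e a v) : ℤ) : ℂ) := by
    intro u v
    push_cast
    refine Finset.sum_congr rfl fun r _ => ?_
    have h : ((Real.sqrt (wt6 r) : ℝ) : ℂ) * ((Real.sqrt (wt6 r) : ℝ) : ℂ) = (wt6 r : ℂ) := by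
      rw [← Complex.ofReal_mul, Real.mul_self_sqrt (Nat.cast_nonneg _)]
      simp
    simp only [M0, Matrix.of_apply, star_mul', Complex.star_def, Complex.conj_ofReal, map_intCast]
    rw [← h]
    ring
  rw [e, e, check_inv]

lemma Inv.mul_left {A A' C R : Type} [Fintype A] [Fintype R] {M : R → Matrix A C ℂ} (h : Inv M)
    (J : Matrix A' A ℂ) : Inv fun r => J * M r := by
  intro a a' c c'
  have e : ∀ u v : C, ∑ r, star ((J * M r) a' u) * (J * M r) a v
      = ∑ x', ∑ x, star (J a' x') * J a x * ∑ r, star (M r x' u) * M r x v := by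
    intro u v
    simp only [Matrix.mul_apply, star_sum, Finset.sum_mul_sum]
    simp only [Finset.mul_sum, star_mul']
    rw [Finset.sum_comm]
    refine Finset.sum_congr rfl fun x' _ => ?_
    rw [Finset.sum_comm]
    refine Finset.sum_congr rfl fun x _ => Finset.sum_congr rfl fun r _ => ?_
    ring
  rw [e, e]
  refine Finset.sum_congr rfl fun x' _ => Finset.sum_congr rfl fun x _ => ?_
  rw [h]

lemma inv_M1 : Inv M1 := (inv_M0.kron inv_M0).mul_left Jm

lemma mon_Jm (x : Fin 4 → ℂ) (a : Fin 4 × Fin 4) : ∑ m, mon x m * Jm m a = x a.1 * x a.2 := by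
  have key : ∀ a : Fin 4 × Fin 4, ∃ m0 : Fin 10, ∀ m : Fin 10,
      ((pr1 m, pr2 m) = a ∨ (pr2 m, pr1 m) = a) ↔ m = m0 := by decide +kernel
  obtain ⟨m0, h⟩ := key a
  simp only [Jm, Matrix.of_apply, h, mul_ite, mul_one, mul_zero, Finset.sum_ite_eq',
    Finset.mem_univ, if_true, mon]
  rcases (h m0).mpr rfl with h1 | h1
  · rw [← h1]
  · rw [← h1, mul_comm]

lemma mon_M1 (s : Fin 35) (e f : Fin 6) (c : Fin 4 × Fin 4) :
    ∑ m, mon (fun a => (node s a : ℂ)) m * M1 (e, f) m c
      = (((Real.sqrt (wt6 e) : ℝ) : ℂ) * (ky s e c.1 : ℂ)) *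
        (((Real.sqrt (wt6 f) : ℝ) : ℂ) * (ky s f c.2 : ℂ)) := by
  simp only [M1, Matrix.mul_apply, Finset.mul_sum, ← mul_assoc]
  rw [Finset.sum_comm]
  simp only [← Finset.sum_mul, mon_Jm]
  rw [check_ky, check_ky, Fintype.sum_prod_type]
  push_cast
  simp only [kronFam, kroneckerMap_apply, M0, Matrix.of_apply, Finset.mul_sum, Finset.sum_mul]
  rw [Finset.sum_comm]
  refine Finset.sum_congr rfl fun a _ => Finset.sum_congr rfl fun b _ => ?_
  ring

lemma pair_node (s : Fin 35) (r : (Fin 6 × Fin 6) × (Fin 6 × Fin 6)) :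
    ∑ m, ∑ m', mon (fun a => (node s a : ℂ)) m * mon (fun a => (node s a : ℂ)) m' *
        (kronFam M1 M1 r *ᵥ epsV) (m, m')
      = ((Real.sqrt (wt6 r.1.1) : ℝ) : ℂ) * ((Real.sqrt (wt6 r.1.2) : ℝ) : ℂ) *
        ((Real.sqrt (wt6 r.2.1) : ℝ) : ℂ) * ((Real.sqrt (wt6 r.2.2) : ℝ) : ℂ) *
        ((det4 (ky s r.1.1) (ky s r.1.2) (ky s r.2.1) (ky s r.2.2) : ℤ) : ℂ) := by
  obtain ⟨⟨e, f⟩, g, h⟩ := r
  rw [det4_cast, ← det4_smul, ← det4_expand]
  have e1 : ∀ m m' : Fin 10, mon (fun a => (node s a : ℂ)) m * mon (fun a => (node s a : ℂ)) m' *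
        (kronFam M1 M1 ((e, f), g, h) *ᵥ epsV) (m, m')
      = ∑ c : Fin 4 × Fin 4, ∑ d : Fin 4 × Fin 4,
          (mon (fun a => (node s a : ℂ)) m * M1 (e, f) m c) *
          (mon (fun a => (node s a : ℂ)) m' * M1 (g, h) m' d) * epsV (c, d) := by
    intro m m'
    simp only [mulVec, dotProduct, kronFam, kroneckerMap_apply, Finset.mul_sum]
    rw [Fintype.sum_prod_type]
    refine Finset.sum_congr rfl fun c _ => Finset.sum_congr rfl fun d _ => ?_
    ring
  simp only [e1]
  have e2 : ∑ m : Fin 10, ∑ m' : Fin 10, ∑ c : Fin 4 × Fin 4, ∑ d : Fin 4 × Fin 4,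
          (mon (fun a => (node s a : ℂ)) m * M1 (e, f) m c) *
          (mon (fun a => (node s a : ℂ)) m' * M1 (g, h) m' d) * epsV (c, d)
      = ∑ c : Fin 4 × Fin 4, ∑ d : Fin 4 × Fin 4,
          (∑ m, mon (fun a => (node s a : ℂ)) m * M1 (e, f) m c) *
          (∑ m', mon (fun a => (node s a : ℂ)) m' * M1 (g, h) m' d) * epsV (c, d) := by
    simp only [Finset.sum_mul_sum]
    simp only [Finset.sum_mul]
    rw [Finset.sum_comm_cycle]
    refine Finset.sum_congr rfl fun c _ => ?_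
    rw [Finset.sum_comm_cycle]
  rw [e2]
  simp only [mon_M1, Fintype.sum_prod_type, epsV]

/-- The unnormalised state. -/
noncomputable def rho0 : Matrix (Fin 10 × Fin 10) (Fin 10 × Fin 10) ℂ :=
  ∑ r, vecMulVec (kronFam M1 M1 r *ᵥ epsV) (star (kronFam M1 M1 r *ᵥ epsV))

lemma rho0_posSemidef : rho0.PosSemidef :=
  posSemidef_sum _ fun _ _ => posSemidef_vecMulVec_self_star _

lemma rho0_ne_zero : rho0 ≠ 0 := by
  intro h0
  have hz : ∀ r x, (kronFam M1 M1 r *ᵥ epsV) x = 0 := by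
    intro r x
    have h1 : rho0 x x = 0 := by rw [h0]; rfl
    simp only [rho0, Matrix.sum_apply, vecMulVec_apply, Pi.star_apply] at h1
    have h2 := (Finset.sum_eq_zero_iff_of_nonneg fun r _ => mul_star_self_nonneg _).mp h1 r
      (Finset.mem_univ _)
    simpa using h2
  have h3 := pair_node 1 ((0, 1), 2, 3)
  simp only [hz, mul_zero, Finset.sum_const_zero] at h3
  have hs : ∀ e : Fin 6, ((Real.sqrt (wt6 e) : ℝ) : ℂ) ≠ 0 := fun e => by
    have : (0 : ℝ) < wt6 e := by exact_mod_cast check_wt e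
    exact_mod_cast (Real.sqrt_pos.mpr this).ne'
  have h4 := check_dt 0 1
  have h5 := check_nz
  refine mul_ne_zero (mul_ne_zero (mul_ne_zero (mul_ne_zero (hs _) (hs _)) (hs _)) (hs _)) ?_
    h3.symm
  exact_mod_cast fun h => h5 (h4.trans h)

lemma rho0_mulVec (j : Fin 19) : rho0 *ᵥ (fun x => (Lam j x.1 x.2 : ℂ)) = 0 := by
  have hz : ∀ r, (kronFam M1 M1 r *ᵥ epsV) ⬝ᵥ (fun x => (Lam j x.1 x.2 : ℂ)) = 0 := by
    intro r
    have e1 : (kronFam M1 M1 r *ᵥ epsV) ⬝ᵥ (fun x => (Lam j x.1 x.2 : ℂ))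
        = ∑ s : Fin 35, (zget nuD j s : ℂ) * ∑ m, ∑ m',
          mon (fun a => (node s a : ℂ)) m * mon (fun a => (node s a : ℂ)) m' *
            (kronFam M1 M1 r *ᵥ epsV) (m, m') := by
      simp only [dotProduct, Fintype.sum_prod_type (α₁ := Fin 10), Lam, Finset.mul_sum]
      push_cast
      simp only [Finset.mul_sum]
      rw [Finset.sum_comm_cycle]
      refine Finset.sum_congr rfl fun s _ => Finset.sum_congr rfl fun m _ =>
        Finset.sum_congr rfl fun m' _ => ?_
      simp only [mon]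
      push_cast
      ring
    rw [e1]
    simp only [pair_node]
    have e2 := congrArg (Int.cast : ℤ → ℂ) (ker_all j r.1.1 r.1.2 r.2.1 r.2.2)
    push_cast at e2
    calc _ = ((Real.sqrt (wt6 r.1.1) : ℝ) : ℂ) * ((Real.sqrt (wt6 r.1.2) : ℝ) : ℂ) *
        ((Real.sqrt (wt6 r.2.1) : ℝ) : ℂ) * ((Real.sqrt (wt6 r.2.2) : ℝ) : ℂ) *
        ∑ s : Fin 35, (zget nuD j s : ℂ) *
          ((det4 (ky s r.1.1) (ky s r.1.2) (ky s r.2.1) (ky s r.2.2) : ℤ) : ℂ) := by
          rw [Finset.mul_sum]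
          refine Finset.sum_congr rfl fun s _ => ?_
          ring
      _ = 0 := by rw [e2, mul_zero]
  rw [rho0, Matrix.sum_mulVec]
  refine Finset.sum_eq_zero fun r _ => ?_
  rw [vecMulVec_mulVec]
  have : star (kronFam M1 M1 r *ᵥ epsV) ⬝ᵥ (fun x => (Lam j x.1 x.2 : ℂ)) = 0 := by
    have h := congrArg star (hz r)
    have hL : star (fun x : Fin 10 × Fin 10 => (Lam j x.1 x.2 : ℂ))
        = fun x => (Lam j x.1 x.2 : ℂ) := by
      ext x
      simp
    rw [star_zero, ← star_dotProduct_star, dotProduct_comm, hL] at h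
    exact h
  rw [this]
  simp

theorem exists_entangled_linked :
    ∃ ρ : Matrix (Fin 10 × Fin 10) (Fin 10 × Fin 10) ℂ,
      IsState ρ ∧ ¬ IsSeparable ρ ∧ Linked ρ := by
  have htr := rho0_posSemidef.trace_nonneg
  have htr0 : rho0.trace ≠ 0 := fun h => rho0_ne_zero (rho0_posSemidef.trace_eq_zero_iff.mp h)
  obtain ⟨t, ht⟩ : ∃ t : ℝ, rho0.trace = t :=
    ⟨rho0.trace.re, Complex.ext rfl (by simpa using (Complex.nonneg_iff.mp htr).2.symm)⟩
  have htpos : 0 < t := by
    rw [ht] at htr htr0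
    exact lt_of_le_of_ne (by exact_mod_cast htr) fun h => htr0 (by rw [← h]; simp)
  refine ⟨((t⁻¹ : ℝ) : ℂ) • rho0, ⟨rho0_posSemidef.smul (by
    exact_mod_cast (inv_pos.mpr htpos).le), ?_⟩, ?_, ?_⟩
  · rw [trace_smul, ht, smul_eq_mul, ← Complex.ofReal_mul, inv_mul_cancel₀ htpos.ne']
    simp
  · rintro ⟨m, p, α, β, hp, hsum, hα, hβ, hρ⟩
    obtain ⟨i, hi⟩ : ∃ i, p i ≠ 0 := by
      by_contra h
      push Not at h
      simp [h] at hsum
    have hαi : α i ≠ 0 := fun h => by simpa [h] using (hα i).2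
    have hβi : β i ≠ 0 := fun h => by simpa [h] using (hβ i).2
    obtain ⟨a, ha⟩ : ∃ a, α i a ≠ 0 := Function.ne_iff.mp hαi
    obtain ⟨b, hb⟩ : ∃ b, β i b ≠ 0 := Function.ne_iff.mp hβi
    refine no_product (α i a) (β i b) ha hb fun j => ?_
    set L : Fin 10 × Fin 10 → ℂ := fun x => (Lam j x.1 x.2 : ℂ) with hL
    have h1 : star L ⬝ᵥ (∑ i, (p i : ℂ) • (α i ⊗ₖ β i)) *ᵥ L = 0 := by
      rw [← hρ, smul_mulVec, rho0_mulVec]
      simp
    rw [Matrix.sum_mulVec, dotProduct_sum] at h1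
    have hpsd : ∀ i, ((p i : ℂ) • (α i ⊗ₖ β i)).PosSemidef := fun i =>
      ((hα i).1.kronecker (hβ i).1).smul (by exact_mod_cast hp i)
    have h2 := (Finset.sum_eq_zero_iff_of_nonneg fun i _ =>
      (hpsd i).dotProduct_mulVec_nonneg L).mp h1 i (Finset.mem_univ _)
    rw [(hpsd i).dotProduct_mulVec_zero_iff, smul_mulVec, smul_eq_zero] at h2
    have h3 := congrFun (h2.resolve_left (by exact_mod_cast hi)) (a, b)
    simp only [mulVec, dotProduct, Fintype.sum_prod_type, kroneckerMap_apply, hL,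
      Pi.zero_apply] at h3
    rw [← h3]
    refine Finset.sum_congr rfl fun m _ => Finset.sum_congr rfl fun m' _ => ?_
    ring
  · refine ⟨Fin 4 × Fin 4, Fin 4 × Fin 4, Fin 6 × Fin 6, Fin 6 × Fin 6, inferInstance,
      inferInstance, inferInstance, inferInstance, M1, M1,
      ((Real.sqrt t⁻¹ : ℝ) : ℂ) • epsV, inv_M1, inv_M1, ?_⟩
    rw [rho0, Finset.smul_sum]
    refine Finset.sum_congr rfl fun r _ => ?_
    have h : ((Real.sqrt t⁻¹ : ℝ) : ℂ) * ((Real.sqrt t⁻¹ : ℝ) : ℂ) = ((t⁻¹ : ℝ) : ℂ) := by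
      rw [← Complex.ofReal_mul, Real.mul_self_sqrt (inv_pos.mpr htpos).le]
    ext x y
    simp only [mulVec_smul, Matrix.smul_apply, vecMulVec_apply, Pi.star_apply, Pi.smul_apply,
      smul_eq_mul, star_mul', Complex.star_def, Complex.conj_ofReal]
    rw [← h]
    ring

end Vale.Agent.P372
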