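import Vale.Agent.P372.Defs
import Vale.Agent.P372.Core

/-! Protocols on linked states have error at least one half. -/

namespace Vale.Agent.P372

open Matrix Filter
open scoped Kronecker ComplexOrder MatrixOrder ENNReal Topology

section ptrace

variable {X X' E : Type} [Fintype X] [Fintype X'] [Fintype E] [DecidableEq E]

omit [Fintype E] [DecidableEq E] in
lemma traceFst_sum {ι : Type} [Fintype ι] (ω : ι → Matrix (X × E) (X × E) ℂ) :
    traceFst (∑ j, ω j) = ∑ j, traceFst (ω j) := by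
  ext e f
  simp only [traceFst, Matrix.sum_apply]
  exact Finset.sum_comm

lemma traceFst_cyc (Y : Matrix X' X ℂ) (Z : Matrix X X' ℂ) (ω : Matrix (X × E) (X × E) ℂ) :
    traceFst ((Y ⊗ₖ (1 : Matrix E E ℂ)) * ω * (Z ⊗ₖ (1 : Matrix E E ℂ)))
      = traceFst (((Z * Y) ⊗ₖ (1 : Matrix E E ℂ)) * ω) := by
  ext e f
  simp only [traceFst, Matrix.mul_apply, Fintype.sum_prod_type, kroneckerMap_apply, one_apply,
    mul_ite, mul_one, mul_zero, ite_mul, zero_mul, Finset.sum_ite_eq, Finset.sum_ite_eq',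
    Finset.mem_univ, if_true, Finset.sum_mul]
  rw [Finset.sum_comm]
  refine Finset.sum_congr rfl fun x _ => ?_
  rw [Finset.sum_comm]
  refine Finset.sum_congr rfl fun y _ => Finset.sum_congr rfl fun x' _ => ?_
  ring

lemma traceFst_step {ι : Type} [Fintype ι] (W : ι → Matrix X' X ℂ) (Θ : Matrix X' X' ℂ)
    (ω : Matrix (X × E) (X × E) ℂ) :
    traceFst ((Θ ⊗ₖ (1 : Matrix E E ℂ)) *
        ∑ j, (W j ⊗ₖ (1 : Matrix E E ℂ)) * ω * (W j ⊗ₖ (1 : Matrix E E ℂ))ᴴ)
      = traceFst (((∑ j, (W j)ᴴ * Θ * W j) ⊗ₖ (1 : Matrix E E ℂ)) * ω) := by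
  have e : (∑ j, (W j)ᴴ * Θ * W j) ⊗ₖ (1 : Matrix E E ℂ)
      = ∑ j, ((W j)ᴴ * Θ * W j) ⊗ₖ (1 : Matrix E E ℂ) := by
    ext x y
    simp only [kroneckerMap_apply, Matrix.sum_apply, Finset.sum_mul]
  rw [e, Matrix.mul_sum, Matrix.sum_mul, traceFst_sum, traceFst_sum]
  refine Finset.sum_congr rfl fun j _ => ?_
  rw [conjTranspose_kronecker, conjTranspose_one, ← Matrix.mul_assoc, ← Matrix.mul_assoc,
    ← mul_kronecker_mul, Matrix.mul_one, traceFst_cyc, Matrix.mul_assoc]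

lemma traceFst_pure (Θ : Matrix X X ℂ) (φ : X × E → ℂ) :
    traceFst ((Θ ⊗ₖ (1 : Matrix E E ℂ)) * ketBra φ)
      = ((Matrix.of fun x e => φ (x, e))ᴴ * Θ * (Matrix.of fun x e => φ (x, e)))ᵀ := by
  ext e f
  simp only [traceFst, ketBra, Matrix.mul_apply, Fintype.sum_prod_type, kroneckerMap_apply,
    one_apply, mul_ite, mul_one, mul_zero, ite_mul, zero_mul, Finset.sum_ite_eq,
    Finset.mem_univ, if_true, Finset.sum_mul, transpose_apply, conjTranspose_apply,
    Matrix.of_apply, vecMulVec_apply, Pi.star_apply]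
  rw [Finset.sum_comm]
  refine Finset.sum_congr rfl fun x _ => Finset.sum_congr rfl fun y _ => ?_
  ring

omit [Fintype X] [DecidableEq E] in
lemma traceSnd_pure (φ : X × E → ℂ) :
    traceSnd (ketBra φ)
      = (Matrix.of fun x e => φ (x, e)) * (Matrix.of fun x e => φ (x, e))ᴴ := by
  ext x y
  simp only [traceSnd, ketBra, Matrix.mul_apply, conjTranspose_apply, Matrix.of_apply,
    vecMulVec_apply, Pi.star_apply]

end ptrace

lemma sum_kronecker_left {ι A B : Type} [Fintype ι] (P : ι → Matrix A A ℂ) (Q : Matrix B B ℂ) :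
    (∑ i, P i) ⊗ₖ Q = ∑ i, P i ⊗ₖ Q := by
  ext x y
  simp only [kroneckerMap_apply, Matrix.sum_apply, Finset.sum_mul]

lemma sum_kronecker_right {ι A B : Type} [Fintype ι] (P : Matrix A A ℂ) (Q : ι → Matrix B B ℂ) :
    P ⊗ₖ (∑ i, Q i) = ∑ i, P ⊗ₖ Q i := by
  ext x y
  simp only [kroneckerMap_apply, Matrix.sum_apply, Finset.mul_sum]

lemma sum_sigma_inst {k : ℕ} {T : Fin k → Type} [∀ m, Fintype (T m)] {M : Type}
    [AddCommMonoid M] (inst : Fintype ((m : Fin k) × T m)) (f : ((m : Fin k) × T m) → M) :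
    (@Finset.univ _ inst).sum f = ∑ m, ∑ t, f ⟨m, t⟩ := by
  obtain rfl : inst = Sigma.instFintype := Subsingleton.elim _ _
  exact Fintype.sum_sigma f

theorem exists_product_form {ℓ dA dB : ℕ} (E : Type) [Fintype E] [DecidableEq E]
    (P : Protocol ℓ dA dB) :
    ∃ (PA : Transcript P → (Fin ℓ → Bool) → Matrix (Fin dA) (Fin dA) ℂ)
      (QB : Transcript P → (Fin ℓ → Bool) → Matrix (Fin dB) (Fin dB) ℂ),
      (∀ t z, (PA t z).PosSemidef) ∧ (∀ t z, (QB t z).PosSemidef) ∧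
      ∑ t, (∑ z, PA t z) ⊗ₖ (∑ z, QB t z) = 1 ∧
      ∀ (ω : Matrix ((Fin dA × Fin dB) × E) ((Fin dA × Fin dB) × E) ℂ) t zA zB,
        eveBlock P ω t zA zB = traceFst (((PA t zA ⊗ₖ QB t zB) ⊗ₖ (1 : Matrix E E ℂ)) * ω) := by
  induction P with
  | finish MA MB hA hB =>
    refine ⟨fun _ => MA, fun _ => MB, fun _ z => hA.1 z, fun _ z => hB.1 z, ?_,
      fun ω t zA zB => rfl⟩
    have : Unique (Transcript (Protocol.finish MA MB hA hB)) := inferInstanceAs (Unique Unit)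
    rw [Fintype.sum_unique, hA.2, hB.2, one_kronecker_one]
  | @alice dA dB k r d V hV next ih =>
    choose PA QB h1 h2 h3 h4 using ih
    refine ⟨fun t z => ∑ j, (V t.1 j)ᴴ * PA t.1 t.2 z * V t.1 j, fun t z => QB t.1 t.2 z,
      fun t z => posSemidef_sum _ fun j _ => (h1 t.1 t.2 z).conjTranspose_mul_mul_same _,
      fun t z => h2 t.1 t.2 z, ?_, fun ω t zA zB => ?_⟩
    · refine (sum_sigma_inst (fintypeTranscript (Protocol.alice k r d V hV next)) _).trans ?_
      have e2 : ∀ m : Fin k, ∑ t : Transcript (next m),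
          (∑ z, ∑ j, (V m j)ᴴ * PA m t z * V m j) ⊗ₖ (∑ z, QB m t z)
          = (∑ j, (V m j)ᴴ * V m j) ⊗ₖ (1 : Matrix (Fin dB) (Fin dB) ℂ) := by
        intro m
        have e3 : ∀ t : Transcript (next m),
            (∑ z, ∑ j, (V m j)ᴴ * PA m t z * V m j) ⊗ₖ (∑ z, QB m t z)
            = ∑ j, (V m j ⊗ₖ (1 : Matrix (Fin dB) (Fin dB) ℂ))ᴴ *
                ((∑ z, PA m t z) ⊗ₖ (∑ z, QB m t z)) *
                (V m j ⊗ₖ (1 : Matrix (Fin dB) (Fin dB) ℂ)) := by
          intro t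
          rw [Finset.sum_comm, sum_kronecker_left]
          refine Finset.sum_congr rfl fun j _ => ?_
          rw [conjTranspose_kronecker, conjTranspose_one, ← mul_kronecker_mul,
            ← mul_kronecker_mul, Matrix.one_mul, Matrix.mul_one, Matrix.mul_sum, Matrix.sum_mul]
        simp only [e3]
        rw [Finset.sum_comm, sum_kronecker_left]
        refine Finset.sum_congr rfl fun j _ => ?_
        rw [← Matrix.sum_mul, ← Matrix.mul_sum, h3, Matrix.mul_one, conjTranspose_kronecker,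
          conjTranspose_one, ← mul_kronecker_mul, Matrix.one_mul]
      simp only [e2]
      rw [← sum_kronecker_left, hV, one_kronecker_one]
    · change eveBlock (next t.1) _ t.2 zA zB = _
      rw [h4, traceFst_step]
      congr 3
      rw [sum_kronecker_left]
      refine Finset.sum_congr rfl fun j _ => ?_
      rw [conjTranspose_kronecker, conjTranspose_one, ← mul_kronecker_mul,
        ← mul_kronecker_mul, Matrix.one_mul, Matrix.mul_one]
  | @bob dA dB k r d V hV next ih =>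
    choose PA QB h1 h2 h3 h4 using ih
    refine ⟨fun t z => PA t.1 t.2 z, fun t z => ∑ j, (V t.1 j)ᴴ * QB t.1 t.2 z * V t.1 j,
      fun t z => h1 t.1 t.2 z,
      fun t z => posSemidef_sum _ fun j _ => (h2 t.1 t.2 z).conjTranspose_mul_mul_same _,
      ?_, fun ω t zA zB => ?_⟩
    · refine (sum_sigma_inst (fintypeTranscript (Protocol.bob k r d V hV next)) _).trans ?_
      have e2 : ∀ m : Fin k, ∑ t : Transcript (next m),
          (∑ z, PA m t z) ⊗ₖ (∑ z, ∑ j, (V m j)ᴴ * QB m t z * V m j)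
          = (1 : Matrix (Fin dA) (Fin dA) ℂ) ⊗ₖ (∑ j, (V m j)ᴴ * V m j) := by
        intro m
        have e3 : ∀ t : Transcript (next m),
            (∑ z, PA m t z) ⊗ₖ (∑ z, ∑ j, (V m j)ᴴ * QB m t z * V m j)
            = ∑ j, ((1 : Matrix (Fin dA) (Fin dA) ℂ) ⊗ₖ V m j)ᴴ *
                ((∑ z, PA m t z) ⊗ₖ (∑ z, QB m t z)) *
                ((1 : Matrix (Fin dA) (Fin dA) ℂ) ⊗ₖ V m j) := by
          intro t
          rw [Finset.sum_comm, sum_kronecker_right]
          refine Finset.sum_congr rfl fun j _ => ?_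
          rw [conjTranspose_kronecker, conjTranspose_one, ← mul_kronecker_mul,
            ← mul_kronecker_mul, Matrix.one_mul, Matrix.mul_one, Matrix.mul_sum, Matrix.sum_mul]
        simp only [e3]
        rw [Finset.sum_comm, sum_kronecker_right]
        refine Finset.sum_congr rfl fun j _ => ?_
        rw [← Matrix.sum_mul, ← Matrix.mul_sum, h3, Matrix.mul_one, conjTranspose_kronecker,
          conjTranspose_one, ← mul_kronecker_mul, Matrix.one_mul]
      simp only [e2]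
      rw [← sum_kronecker_right, hV, one_kronecker_one]
    · change eveBlock (next t.1) _ t.2 zA zB = _
      rw [h4, traceFst_step]
      congr 3
      rw [sum_kronecker_right]
      refine Finset.sum_congr rfl fun j _ => ?_
      rw [conjTranspose_kronecker, conjTranspose_one, ← mul_kronecker_mul,
        ← mul_kronecker_mul, Matrix.one_mul, Matrix.mul_one]

section dsum

variable {I Y : Type} [Fintype I] [DecidableEq I] [Fintype Y]

/-- Block-diagonal matrix with the classical index on the left. -/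
noncomputable def dsumL (G : I → Matrix Y Y ℂ) : Matrix (I × Y) (I × Y) ℂ :=
  ∑ i, single i i (1 : ℂ) ⊗ₖ G i

/-- Block-diagonal matrix with the classical index on the right. -/
noncomputable def dsumR (G : I → Matrix Y Y ℂ) : Matrix (Y × I) (Y × I) ℂ :=
  ∑ i, G i ⊗ₖ single i i (1 : ℂ)

omit [Fintype Y] in
lemma dsumL_apply (G : I → Matrix Y Y ℂ) (x y : I × Y) :
    dsumL G x y = if x.1 = y.1 then G x.1 x.2 y.2 else 0 := by
  simp only [dsumL, Matrix.sum_apply, kroneckerMap_apply, single_apply, ite_mul, one_mul,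
    zero_mul]
  rw [Finset.sum_eq_single x.1]
  · simp
  · intro i _ hi
    simp [hi]
  · simp

omit [Fintype Y] in
lemma dsumR_apply (G : I → Matrix Y Y ℂ) (x y : Y × I) :
    dsumR G x y = if x.2 = y.2 then G x.2 x.1 y.1 else 0 := by
  simp only [dsumR, Matrix.sum_apply, kroneckerMap_apply, single_apply, mul_ite, mul_one,
    mul_zero]
  rw [Finset.sum_eq_single x.2]
  · simp
  · intro i _ hi
    simp [hi]
  · simp

lemma dsumL_mul (F G : I → Matrix Y Y ℂ) : dsumL F * dsumL G = dsumL fun i => F i * G i := by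
  ext x y
  simp only [Matrix.mul_apply, dsumL_apply, Fintype.sum_prod_type, ite_mul, zero_mul]
  rw [Finset.sum_comm]
  simp only [Finset.sum_ite_eq, Finset.mem_univ, if_true, mul_ite, mul_zero]
  split_ifs <;> simp

lemma dsumR_mul (F G : I → Matrix Y Y ℂ) : dsumR F * dsumR G = dsumR fun i => F i * G i := by
  ext x y
  simp only [Matrix.mul_apply, dsumR_apply, Fintype.sum_prod_type, ite_mul, zero_mul]
  simp only [Finset.sum_ite_eq, Finset.mem_univ, if_true, mul_ite, mul_zero]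
  split_ifs <;> simp

omit [Fintype Y] in
lemma dsumL_conjTranspose (F : I → Matrix Y Y ℂ) : (dsumL F)ᴴ = dsumL fun i => (F i)ᴴ := by
  ext x y
  simp only [conjTranspose_apply, dsumL_apply]
  by_cases h : x.1 = y.1
  · simp [h]
  · simp [h, Ne.symm h]

omit [Fintype Y] in
lemma dsumR_conjTranspose (F : I → Matrix Y Y ℂ) : (dsumR F)ᴴ = dsumR fun i => (F i)ᴴ := by
  ext x y
  simp only [conjTranspose_apply, dsumR_apply]
  by_cases h : x.2 = y.2
  · simp [h]
  · simp [h, Ne.symm h]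

lemma trace_dsumL (F : I → Matrix Y Y ℂ) : (dsumL F).trace = ∑ i, (F i).trace := by
  simp [trace, dsumL_apply, Fintype.sum_prod_type]

lemma trace_dsumR (F : I → Matrix Y Y ℂ) : (dsumR F).trace = ∑ i, (F i).trace := by
  simp only [trace, diag_apply, dsumR_apply, Fintype.sum_prod_type, if_true]
  exact Finset.sum_comm

omit [Fintype Y] in
lemma one_sub_dsumL [DecidableEq Y] (F : I → Matrix Y Y ℂ) :
    1 - dsumL F = dsumL fun i => 1 - F i := by
  ext x y
  simp only [Matrix.sub_apply, dsumL_apply, one_apply, Prod.ext_iff]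
  by_cases h : x.1 = y.1 <;> simp [h]

omit [Fintype Y] in
lemma one_sub_dsumR [DecidableEq Y] (F : I → Matrix Y Y ℂ) :
    1 - dsumR F = dsumR fun i => 1 - F i := by
  ext x y
  simp only [Matrix.sub_apply, dsumR_apply, one_apply, Prod.ext_iff]
  by_cases h : x.2 = y.2 <;> simp [h]

omit [Fintype I] in
lemma posSemidef_single (i : I) : (single i i (1 : ℂ)).PosSemidef := by
  have : single i i (1 : ℂ) = diagonal (Pi.single i (1 : ℂ)) := (diagonal_single i 1).symm
  rw [this]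
  refine PosSemidef.diagonal fun j => ?_
  by_cases h : j = i
  · simp [h]
  · simp [h]

lemma dsumL_posSemidef {F : I → Matrix Y Y ℂ} (h : ∀ i, (F i).PosSemidef) :
    (dsumL F).PosSemidef :=
  posSemidef_sum _ fun i _ => (posSemidef_single i).kronecker (h i)

lemma dsumR_posSemidef {F : I → Matrix Y Y ℂ} (h : ∀ i, (F i).PosSemidef) :
    (dsumR F).PosSemidef :=
  posSemidef_sum _ fun i _ => (h i).kronecker (posSemidef_single i)

end dsum

section test

variable {E : Type} [Fintype E] [DecidableEq E]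

/-- The test operator on Eve's side for given first key bits. -/
noncomputable def testOp (S : Matrix E E ℂ) (i j : Bool) : Matrix E E ℂ :=
  if i = j then (if i then ((-1 / 2 : ℝ) : ℂ) • S else ((1 / 2 : ℝ) : ℂ) • S) else 1

lemma testOp_contr {S : Matrix E E ℂ} (hS : S.IsHermitian) (hSS : S * S = 1) (i j : Bool) :
    (1 - ((testOp S i j)ᵀ)ᴴ * (testOp S i j)ᵀ).PosSemidef := by
  have hT : (Sᵀ)ᴴ * Sᵀ = 1 := by
    rw [hS.transpose.eq, ← transpose_mul, hSS, transpose_one]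
  have key : ∀ c : ℝ, c ^ 2 ≤ 1 →
      (1 - (((c : ℂ) • S)ᵀ)ᴴ * ((c : ℂ) • S)ᵀ).PosSemidef := by
    intro c hc
    have e : 1 - (((c : ℂ) • S)ᵀ)ᴴ * ((c : ℂ) • S)ᵀ
        = ((1 - c ^ 2 : ℝ) : ℂ) • (1 : Matrix E E ℂ) := by
      rw [transpose_smul, conjTranspose_smul, Matrix.smul_mul, Matrix.mul_smul, hT, smul_smul]
      simp [sub_smul, sq]
    rw [e]
    exact PosSemidef.one.smul (by exact_mod_cast sub_nonneg.mpr hc)
  unfold testOp
  split_ifs
  · exact key _ (by norm_num)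
  · exact key _ (by norm_num)
  · simpa using PosSemidef.zero

lemma exists_test_transcript {A B K : Type} [Fintype A] [Fintype B] [Fintype K]
    (Ψ : Matrix (A × B) E ℂ) (hρ : Linked (Ψ * Ψᴴ)) (f : K → Bool)
    (PA : K → Matrix A A ℂ) (QB : K → Matrix B B ℂ) (hP : ∀ z, (PA z).PosSemidef)
    (hQ : ∀ z, (QB z).PosSemidef) :
    ∃ S : Matrix E E ℂ, S.IsHermitian ∧ S * S = 1 ∧
      1 / 2 * (Ψᴴ * ((∑ z, PA z) ⊗ₖ (∑ z, QB z)) * Ψ).trace.re
        ≤ ∑ zA, ∑ zB, (testOp S (f zA) (f zB) * (Ψᴴ * (PA zA ⊗ₖ QB zB) * Ψ)).trace.re := by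
  classical
  set P : Bool → Matrix A A ℂ := fun i => ∑ z, if f z = i then PA z else 0 with hPdef
  set Q : Bool → Matrix B B ℂ := fun i => ∑ z, if f z = i then QB z else 0 with hQdef
  have hP' : ∀ i, (P i).PosSemidef := fun i => posSemidef_sum _ fun z _ => by
    split_ifs
    · exact hP z
    · exact PosSemidef.zero
  have hQ' : ∀ i, (Q i).PosSemidef := fun i => posSemidef_sum _ fun z _ => by
    split_ifs
    · exact hQ z
    · exact PosSemidef.zero
  obtain ⟨S, hS, hSS, h⟩ := exists_eve_test Ψ ((hP' false).kronecker (hQ' false))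
    ((hP' true).kronecker (hQ' true)) _
    (hρ.key (hP' false) (hP' true) (hQ' false) (hQ' true))
  refine ⟨S, hS, hSS, ?_⟩
  have ex : ∀ (X : Matrix E E ℂ) (i j : Bool), (X * (Ψᴴ * (P i ⊗ₖ Q j) * Ψ)).trace.re
      = ∑ zA, ∑ zB, if f zA = i ∧ f zB = j then
          (X * (Ψᴴ * (PA zA ⊗ₖ QB zB) * Ψ)).trace.re else 0 := by
    intro X i j
    simp only [hPdef, hQdef, sum_kronecker_left, sum_kronecker_right, Matrix.mul_sum,
      Matrix.sum_mul, trace_sum, Complex.re_sum]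
    rw [Finset.sum_comm]
    refine Finset.sum_congr rfl fun zA _ => Finset.sum_congr rfl fun zB _ => ?_
    by_cases h1 : f zA = i <;> by_cases h2 : f zB = j <;> simp [h1, h2]
  have ecyc : ∀ Θ : Matrix (A × B) (A × B) ℂ,
      (Θ * (Ψ * Ψᴴ)).trace = (1 * (Ψᴴ * Θ * Ψ)).trace := by
    intro Θ
    rw [Matrix.one_mul, ← Matrix.mul_assoc, trace_mul_comm, Matrix.mul_assoc]
  have etot : (Ψᴴ * ((∑ z, PA z) ⊗ₖ (∑ z, QB z)) * Ψ).trace.re
      = ∑ zA, ∑ zB, (1 * (Ψᴴ * (PA zA ⊗ₖ QB zB) * Ψ)).trace.re := by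
    simp only [sum_kronecker_left, sum_kronecker_right, Matrix.mul_sum,
      Matrix.sum_mul, trace_sum, Complex.re_sum, Matrix.one_mul]
    exact Finset.sum_comm
  rw [ecyc, ecyc, ← Matrix.one_mul (Ψᴴ * (P false ⊗ₖ Q false) * Ψ),
    ← Matrix.one_mul (Ψᴴ * (P true ⊗ₖ Q true) * Ψ), ← Matrix.mul_assoc S, ← Matrix.mul_assoc S,
    Matrix.mul_one, ex, ex, ex, ex, ex, ex] at h
  have e1 : ∑ zA, ∑ zB, (testOp S (f zA) (f zB) * (Ψᴴ * (PA zA ⊗ₖ QB zB) * Ψ)).trace.re
      - 1 / 2 * (Ψᴴ * ((∑ z, PA z) ⊗ₖ (∑ z, QB z)) * Ψ).trace.re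
      = 1 / 2 * (((∑ zA, ∑ zB, if f zA = false ∧ f zB = false then
          (S * (Ψᴴ * (PA zA ⊗ₖ QB zB) * Ψ)).trace.re else 0)
        - (∑ zA, ∑ zB, if f zA = true ∧ f zB = true then
          (S * (Ψᴴ * (PA zA ⊗ₖ QB zB) * Ψ)).trace.re else 0))
        - ((∑ zA, ∑ zB, if f zA = false ∧ f zB = false then
          (1 * (Ψᴴ * (PA zA ⊗ₖ QB zB) * Ψ)).trace.re else 0)
        + (∑ zA, ∑ zB, if f zA = true ∧ f zB = true then
          (1 * (Ψᴴ * (PA zA ⊗ₖ QB zB) * Ψ)).trace.re else 0)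
        - ((∑ zA, ∑ zB, if f zA = false ∧ f zB = true then
          (1 * (Ψᴴ * (PA zA ⊗ₖ QB zB) * Ψ)).trace.re else 0)
        + (∑ zA, ∑ zB, if f zA = true ∧ f zB = false then
          (1 * (Ψᴴ * (PA zA ⊗ₖ QB zB) * Ψ)).trace.re else 0)))) := by
    rw [etot]
    simp only [Finset.mul_sum, ← Finset.sum_sub_distrib, ← Finset.sum_add_distrib]
    refine Finset.sum_congr rfl fun zA _ => Finset.sum_congr rfl fun zB _ => ?_
    cases f zA <;> cases f zB <;> simp [testOp] <;> ring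
  linarith

end test

lemma re_trace_mul_le {n : Type} [Fintype n] [DecidableEq n] (X S : Matrix n n ℂ)
    (hS : (1 - Sᴴ * S).PosSemidef) : (S * X).trace.re ≤ traceNorm X := by
  have h := re_trace_mul_le_traceNorm X S hS
  rw [CFC.sqrt_eq_cfc, cfc_nnreal_eq_real _ _ (posSemidef_conjTranspose_mul_self X).nonneg] at h
  have e : (fun x : ℝ => ((NNReal.sqrt x.toNNReal : NNReal) : ℝ)) = Real.sqrt := by
    funext x
    rw [Real.sqrt]
  rw [e] at h
  exact h

lemma finalState_eq {ℓ dA dB : ℕ} {E : Type} [Fintype E] [DecidableEq E]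
    (P : Protocol ℓ dA dB) (ω : Matrix ((Fin dA × Fin dB) × E) ((Fin dA × Fin dB) × E) ℂ) :
    finalState P ω = dsumL fun zz => dsumR fun t => eveBlock P ω t zz.1 zz.2 := by
  unfold finalState dsumL dsumR
  rw [Fintype.sum_prod_type]
  simp only [sum_kronecker_right]

lemma idealState_eq (ℓ : ℕ) {F : Type} (σ : Matrix F F ℂ) :
    idealState ℓ σ = ((2 : ℂ) ^ ℓ)⁻¹ •
      dsumL fun zz : (Fin ℓ → Bool) × (Fin ℓ → Bool) => if zz.1 = zz.2 then σ else 0 := by
  unfold idealState dsumL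
  rw [Fintype.sum_prod_type]
  congr 1
  refine Finset.sum_congr rfl fun z _ => ?_
  rw [Finset.sum_eq_single z]
  · simp
  · intro b _ hb
    simp [Ne.symm hb]
  · simp

lemma trace_test_ideal {ℓ : ℕ} {F : Type} [Fintype F] (σ : Matrix F F ℂ) (i0 : Fin ℓ)
    (T : Bool → Bool → Matrix F F ℂ) (hT : ∀ b, T (!b) (!b) = -T b b) :
    (dsumL (fun zz : (Fin ℓ → Bool) × (Fin ℓ → Bool) => T (zz.1 i0) (zz.2 i0)) *
      idealState ℓ σ).trace = 0 := by
  rw [idealState_eq, Matrix.mul_smul, trace_smul, dsumL_mul, trace_dsumL, Fintype.sum_prod_type]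
  have e : ∀ z : Fin ℓ → Bool,
      ∑ z' : Fin ℓ → Bool, (T (z i0) (z' i0) * if z = z' then σ else 0).trace
        = (T (z i0) (z i0) * σ).trace := by
    intro z
    rw [Finset.sum_eq_single z]
    · simp
    · intro b _ hb
      simp [Ne.symm hb]
    · simp
  simp only [e]
  have hinv : Function.Involutive fun z : Fin ℓ → Bool => Function.update z i0 (!z i0) := by
    intro z
    simp
  have hs := Equiv.sum_comp (hinv.toPerm _) fun z => (T (z i0) (z i0) * σ).trace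
  simp only [Function.Involutive.coe_toPerm, Function.update_self, hT, Matrix.neg_mul, trace_neg,
    Finset.sum_neg_distrib] at hs
  have : ∑ z : Fin ℓ → Bool, (T (z i0) (z i0) * σ).trace = 0 := by
    linear_combination (-1 / 2 : ℂ) * hs
  rw [this, smul_zero]

lemma half_le_trace {K A B E I : Type} [Fintype K] [DecidableEq K] [Fintype A] [Fintype B]
    [DecidableEq A] [DecidableEq B] [Fintype E] [Fintype I] [DecidableEq I]
    (Ψ : Matrix (A × B) E ℂ) (htr : (Ψ * Ψᴴ).trace = 1)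
    (PA : I → K → Matrix A A ℂ) (QB : I → K → Matrix B B ℂ)
    (htot : ∑ t, (∑ z, PA t z) ⊗ₖ (∑ z, QB t z) = 1) (T : I → K → K → Matrix E E ℂ)
    (hbound : ∀ t, 1 / 2 * (Ψᴴ * ((∑ z, PA t z) ⊗ₖ (∑ z, QB t z)) * Ψ).trace.re
        ≤ ∑ zA, ∑ zB, (T t zA zB * (Ψᴴ * (PA t zA ⊗ₖ QB t zB) * Ψ)).trace.re) :
    1 / 2 ≤ ((dsumL fun zz : K × K => dsumR fun t => (T t zz.1 zz.2)ᵀ) *
      (dsumL fun zz : K × K => dsumR fun t => (Ψᴴ * (PA t zz.1 ⊗ₖ QB t zz.2) * Ψ)ᵀ)).trace.re := by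
  rw [dsumL_mul, trace_dsumL]
  have e0 : ∀ zz : K × K, ((dsumR fun t => (T t zz.1 zz.2)ᵀ) *
      dsumR fun t => (Ψᴴ * (PA t zz.1 ⊗ₖ QB t zz.2) * Ψ)ᵀ).trace
      = ∑ t, (T t zz.1 zz.2 * (Ψᴴ * (PA t zz.1 ⊗ₖ QB t zz.2) * Ψ)).trace := by
    intro zz
    rw [dsumR_mul, trace_dsumR]
    refine Finset.sum_congr rfl fun t _ => ?_
    rw [← transpose_mul, trace_transpose, trace_mul_comm]
  rw [Finset.sum_congr rfl fun zz _ => e0 zz, Finset.sum_comm, Complex.re_sum]
  have e : (1 / 2 : ℝ) = ∑ t, 1 / 2 *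
      (Ψᴴ * ((∑ z, PA t z) ⊗ₖ (∑ z, QB t z)) * Ψ).trace.re := by
    rw [← Finset.mul_sum, ← Complex.re_sum, ← trace_sum, ← Matrix.sum_mul, ← Matrix.mul_sum,
      htot, Matrix.mul_one, trace_mul_comm, htr]
    simp
  rw [e]
  refine Finset.sum_le_sum fun t _ => (hbound t).trans (le_of_eq ?_)
  rw [Fintype.sum_prod_type, Complex.re_sum]
  refine Finset.sum_congr rfl fun zA _ => ?_
  rw [Complex.re_sum]

lemma test_contr {K E I : Type} [Fintype K] [DecidableEq K] [Fintype E] [DecidableEq E]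
    [Fintype I] [DecidableEq I] (T : K → I → Matrix E E ℂ)
    (hT : ∀ z t, (1 - (T z t)ᴴ * T z t).PosSemidef) :
    (1 - (dsumL fun z => dsumR fun t => T z t)ᴴ *
      (dsumL fun z => dsumR fun t => T z t)).PosSemidef := by
  rw [dsumL_conjTranspose, dsumL_mul, one_sub_dsumL]
  refine dsumL_posSemidef fun zz => ?_
  rw [dsumR_conjTranspose, dsumR_mul, one_sub_dsumR]
  exact dsumR_posSemidef fun t => hT _ _

lemma testOp_neg {E I : Type} [Fintype E] [DecidableEq E] [Fintype I] [DecidableEq I]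
    (S : I → Matrix E E ℂ) (b : Bool) :
    (dsumR fun t => (testOp (S t) (!b) (!b))ᵀ) = -dsumR fun t => (testOp (S t) b b)ᵀ := by
  ext x y
  simp only [dsumR_apply, Matrix.neg_apply]
  split_ifs
  · cases b <;> simp [testOp] <;> ring
  · simp

lemma half_le_abstract {ℓ : ℕ} {A B E I : Type} [Fintype A] [Fintype B] [DecidableEq A]
    [DecidableEq B] [Fintype E] [DecidableEq E] [Fintype I] [DecidableEq I]
    (Ψ : Matrix (A × B) E ℂ) (hρ : Linked (Ψ * Ψᴴ)) (htr : (Ψ * Ψᴴ).trace = 1) (hℓ : 1 ≤ ℓ)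
    (PA : I → (Fin ℓ → Bool) → Matrix A A ℂ) (QB : I → (Fin ℓ → Bool) → Matrix B B ℂ)
    (hP : ∀ t z, (PA t z).PosSemidef) (hQ : ∀ t z, (QB t z).PosSemidef)
    (htot : ∑ t, (∑ z, PA t z) ⊗ₖ (∑ z, QB t z) = 1) (σ : Matrix (E × I) (E × I) ℂ) :
    1 / 2 ≤ traceNorm ((dsumL fun zz : (Fin ℓ → Bool) × (Fin ℓ → Bool) => dsumR fun t =>
      (Ψᴴ * (PA t zz.1 ⊗ₖ QB t zz.2) * Ψ)ᵀ) - idealState ℓ σ) := by
  obtain ⟨i0⟩ : Nonempty (Fin ℓ) := ⟨⟨0, hℓ⟩⟩
  choose S hS hSS hbound using fun t => exists_test_transcript Ψ hρ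
    (fun z : Fin ℓ → Bool => z i0) (PA t) (QB t) (hP t) (hQ t)
  have h1 := half_le_trace Ψ htr PA QB htot (fun t zA zB => testOp (S t) (zA i0) (zB i0)) hbound
  have h2 := trace_test_ideal σ i0 (fun b b' => dsumR fun t => (testOp (S t) b b')ᵀ)
    (testOp_neg S)
  have h3 := test_contr (fun (zz : (Fin ℓ → Bool) × (Fin ℓ → Bool)) t =>
    (testOp (S t) (zz.1 i0) (zz.2 i0))ᵀ) fun zz t => testOp_contr (hS t) (hSS t) _ _
  refine le_trans ?_ (re_trace_mul_le _ _ h3)
  rw [Matrix.mul_sub, trace_sub, h2, sub_zero]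
  exact h1

theorem half_le_error {ℓ dA dB : ℕ} {E : Type} [Fintype E] [DecidableEq E]
    {ρ : Matrix (Fin dA × Fin dB) (Fin dA × Fin dB) ℂ} (hρ : Linked ρ) (htr : ρ.trace = 1)
    {φ : (Fin dA × Fin dB) × E → ℂ} (hφ : IsPurification φ ρ) (hℓ : 1 ≤ ℓ)
    (P : Protocol ℓ dA dB) {ε : ℝ} (hε : HasError P φ ε) : 1 / 2 ≤ ε := by
  obtain ⟨σ, -, hσ⟩ := hε
  obtain ⟨PA, QB, hP, hQ, htot, hblock⟩ := exists_product_form E P
  have hρΨ : ρ = (Matrix.of fun x e => φ (x, e)) * (Matrix.of fun x e => φ (x, e))ᴴ := by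
    rw [← hφ, traceSnd_pure]
  subst hρΨ
  refine le_trans ?_ hσ
  rw [finalState_eq]
  simp only [hblock, traceFst_pure]
  exact half_le_abstract _ hρ htr hℓ PA QB hP hQ htot σ

theorem half_le_error_pow {ℓ dA dB : ℕ} {E : Type} [Fintype E] [DecidableEq E]
    {ρ : Matrix (Fin dA × Fin dB) (Fin dA × Fin dB) ℂ} (hρ : Linked ρ) (htr : ρ.trace = 1)
    {ψ : (Fin dA × Fin dB) × E → ℂ} (hψ : IsPurification ψ ρ) (n : ℕ) (hℓ : 1 ≤ ℓ)
    (P : Protocol ℓ (dA ^ n) (dB ^ n)) {ε : ℝ} (hε : HasError P (tensorPow ψ n) ε) :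
    1 / 2 ≤ ε := by
  refine half_le_error (hρ.pow n finFunctionFinEquiv.symm finFunctionFinEquiv.symm) ?_ ?_ hℓ P hε
  · simp only [trace, diag_apply, Matrix.of_apply]
    have e := Fintype.prod_sum (fun (_ : Fin n) (x : Fin dA × Fin dB) => ρ x x)
    simp only [trace, diag_apply] at htr
    rw [htr, Finset.prod_const_one] at e
    rw [e]
    refine Fintype.sum_equiv ((finFunctionFinEquiv.symm.prodCongr finFunctionFinEquiv.symm).trans
      (Equiv.arrowProdEquivProdArrow (Fin n) (fun _ => Fin dA) (fun _ => Fin dB)).symm) _ _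
      fun x => rfl
  · ext x y
    simp only [traceSnd, ketBra, vecMulVec_apply, Pi.star_apply, tensorPow, Matrix.of_apply]
    rw [← hψ]
    simp only [traceSnd, ketBra, vecMulVec_apply, Pi.star_apply]
    rw [Fintype.prod_sum]
    refine Finset.sum_congr rfl fun e _ => ?_
    rw [star_prod, ← Finset.prod_mul_distrib]

theorem keyRate_eq_zero {dA dB : ℕ} {E : Type} [Fintype E] [DecidableEq E]
    {ρ : Matrix (Fin dA × Fin dB) (Fin dA × Fin dB) ℂ} (hρ : Linked ρ) (htr : ρ.trace = 1)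
    {ψ : (Fin dA × Fin dB) × E → ℂ} (hψ : IsPurification ψ ρ) : keyRate ψ = 0 := by
  refine le_antisymm (sSup_le ?_) zero_le
  rintro R ⟨ℓ, P, ε, hP, hε, rfl⟩
  have h1 : ∀ᶠ n in atTop, ε n < 1 / 2 := hε.eventually (gt_mem_nhds (by norm_num))
  have h2 : ∀ᶠ n : ℕ in atTop, (ℓ n : ℝ≥0∞) / (n : ℝ≥0∞) = 0 := by
    filter_upwards [h1] with n hn
    have : ℓ n = 0 := by
      by_contra h0
      have := half_le_error_pow hρ htr hψ n (Nat.one_le_iff_ne_zero.mpr h0) (P n) (hP n)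
      linarith
    simp [this]
  rw [liminf_congr h2, liminf_const]

theorem exists_purification {X : Type} [Fintype X] {ρ : Matrix X X ℂ} (hρ : ρ.PosSemidef) :
    ∃ ψ : X × X → ℂ, IsPurification ψ ρ := by
  classical
  obtain ⟨C, rfl⟩ := CStarAlgebra.nonneg_iff_eq_star_mul_self.mp hρ.nonneg
  refine ⟨fun x => star (C x.2 x.1), ?_⟩
  ext x y
  simp [traceSnd, ketBra, vecMulVec_apply, Matrix.mul_apply]

end Vale.Agent.P372
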