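import Mathlib

/-! General matrix lemmas for P372. -/

namespace Vale.Agent.P372

open Matrix
open scoped Kronecker ComplexOrder MatrixOrder

variable {n m : Type} [Fintype n] [Fintype m]

/-- Real part of the sesquilinear form of a matrix. -/
noncomputable def qf (M : Matrix n n ℂ) (y x : n → ℂ) : ℝ := (star y ⬝ᵥ M *ᵥ x).re

lemma qf_add (M N : Matrix n n ℂ) (y x : n → ℂ) : qf (M + N) y x = qf M y x + qf N y x := by
  simp [qf, add_mulVec]

lemma qf_sub (M N : Matrix n n ℂ) (y x : n → ℂ) : qf (M - N) y x = qf M y x - qf N y x := by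
  simp [qf, sub_mulVec]

lemma qf_smul (c : ℝ) (M : Matrix n n ℂ) (y x : n → ℂ) :
    qf ((c : ℂ) • M) y x = c * qf M y x := by
  simp [qf, smul_mulVec]

lemma qf_sum {ι : Type} (s : Finset ι) (M : ι → Matrix n n ℂ) (y x : n → ℂ) :
    qf (∑ i ∈ s, M i) y x = ∑ i ∈ s, qf (M i) y x := by
  classical
  induction s using Finset.induction_on with
  | empty => simp [qf]
  | insert i s hi ih => rw [Finset.sum_insert hi, Finset.sum_insert hi, qf_add, ih]

lemma qf_congr (X : Matrix n m ℂ) (M : Matrix n n ℂ) (y x : m → ℂ) :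
    qf (Xᴴ * M * X) y x = qf M (X *ᵥ y) (X *ᵥ x) := by
  simp only [qf, star_mulVec, dotProduct_mulVec, vecMul_vecMul]

lemma qf_conjTranspose (M : Matrix n n ℂ) (y x : n → ℂ) : qf Mᴴ y x = qf M x y := by
  have h : star y ⬝ᵥ Mᴴ *ᵥ x = star (star x ⬝ᵥ M *ᵥ y) := by
    rw [dotProduct_mulVec, ← star_mulVec, star_dotProduct]
  unfold qf
  rw [h]
  simp

lemma qf_transpose (M : Matrix n n ℂ) (y x : n → ℂ) :
    qf Mᵀ y x = qf M (star x) (star y) := by
  unfold qf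
  rw [star_star, mulVec_transpose, dotProduct_comm, ← dotProduct_mulVec]

lemma qf_nonneg {M : Matrix n n ℂ} (hM : M.PosSemidef) (x : n → ℂ) : 0 ≤ qf M x x :=
  (Complex.nonneg_iff.mp (hM.dotProduct_mulVec_nonneg x)).1

lemma qf_le_of_posSemidef {M N : Matrix n n ℂ} (h : (N - M).PosSemidef) (x : n → ℂ) :
    qf M x x ≤ qf N x x := by
  have := qf_nonneg h x
  rw [qf_sub] at this
  linarith

lemma posSemidef_of_qf {M : Matrix n n ℂ} (hM : M.IsHermitian) (h : ∀ x, 0 ≤ qf M x x) :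
    M.PosSemidef := by
  refine PosSemidef.of_dotProduct_mulVec_nonneg hM fun x => ?_
  rw [Complex.nonneg_iff]
  refine ⟨h x, ?_⟩
  have h1 : star (star x ⬝ᵥ M *ᵥ x) = star x ⬝ᵥ M *ᵥ x := by
    conv_rhs => rw [← hM.eq]
    rw [dotProduct_mulVec _ Mᴴ, ← star_mulVec, star_dotProduct, star_star, dotProduct_comm]
  have h2 := congrArg Complex.im h1
  simp only [Complex.star_def, Complex.conj_im] at h2
  linarith

lemma trace_mul_nonneg {A B : Matrix n n ℂ} (hA : A.PosSemidef) (hB : B.PosSemidef) :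
    0 ≤ (A * B).trace.re := by
  classical
  obtain ⟨C, rfl⟩ := CStarAlgebra.nonneg_iff_eq_star_mul_self.mp hA.nonneg
  rw [star_eq_conjTranspose, Matrix.mul_assoc, trace_mul_comm]
  exact (Complex.nonneg_iff.mp (hB.mul_mul_conjTranspose_same C).trace_nonneg).1

section cfc

variable [DecidableEq n]

lemma contOn (f : ℝ → ℝ) (A : Matrix n n ℂ) : ContinuousOn f (spectrum ℝ A) :=
  (Matrix.finite_real_spectrum (A := A)).continuousOn f

lemma exists_pinv {R : Matrix n n ℂ} (hR : R.IsHermitian) :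
    ∃ G : Matrix n n ℂ, G.IsHermitian ∧ R * G = G * R ∧ R * G * R = R ∧ G * R * G = G := by
  have hR' : IsSelfAdjoint R := hR
  have hid : cfc (fun x : ℝ => x) R = R := cfc_id' ℝ R
  have hmul : ∀ f g : ℝ → ℝ, cfc f R * cfc g R = cfc (fun x => f x * g x) R := fun f g =>
    (cfc_mul f g R (contOn _ _) (contOn _ _)).symm
  refine ⟨cfc (fun x : ℝ => x⁻¹) R, cfc_predicate _ R, ?_, ?_, ?_⟩
  · conv_lhs => enter [1]; rw [← hid]
    conv_rhs => enter [2]; rw [← hid]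
    rw [hmul, hmul]
    congr 1
    ext x
    ring
  · conv_lhs => enter [1, 1]; rw [← hid]
    conv_lhs => enter [2]; rw [← hid]
    conv_rhs => rw [← hid]
    rw [hmul, hmul]
    congr 1
    ext x
    by_cases hx : x = 0
    · simp [hx]
    · field_simp
  · conv_lhs => enter [1, 2]; rw [← hid]
    rw [hmul, hmul]
    congr 1
    ext x
    by_cases hx : x = 0
    · simp [hx]
    · field_simp

lemma exists_sign {H : Matrix n n ℂ} (hH : H.IsHermitian) :
    ∃ S : Matrix n n ℂ, S.IsHermitian ∧ S * S = 1 ∧ S * H = H * S ∧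
      (S * H + H).PosSemidef ∧ (S * H - H).PosSemidef := by
  have hH' : IsSelfAdjoint H := hH
  have hid : cfc (fun x : ℝ => x) H = H := cfc_id' ℝ H
  have hmul : ∀ f g : ℝ → ℝ, cfc f H * cfc g H = cfc (fun x => f x * g x) H := fun f g =>
    (cfc_mul f g H (contOn _ _) (contOn _ _)).symm
  set s : ℝ → ℝ := fun x => if 0 ≤ x then 1 else -1 with hs
  have hSH : cfc s H * H = cfc (fun x => s x * x) H := by
    conv_lhs => enter [2]; rw [← hid]
    rw [hmul]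
  refine ⟨cfc s H, cfc_predicate _ H, ?_, ?_, ?_, ?_⟩
  · rw [hmul, ← cfc_one ℝ H]
    congr 1
    ext x
    by_cases hx : 0 ≤ x <;> simp [hs, hx]
  · rw [hSH]
    conv_rhs => enter [1]; rw [← hid]
    rw [hmul]
    congr 1
    ext x
    ring
  · rw [hSH]
    conv => enter [1, 2]; rw [← hid]
    rw [← cfc_add H _ _ (contOn _ _) (contOn _ _)]
    refine (cfc_nonneg fun x _ => ?_).posSemidef
    by_cases hx : 0 ≤ x <;> simp [hs, hx]
  · rw [hSH]
    conv => enter [1, 2]; rw [← hid]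
    rw [← cfc_sub _ _ H (contOn _ _) (contOn _ _)]
    refine (cfc_nonneg fun x _ => ?_).posSemidef
    by_cases hx : 0 ≤ x
    · simp [hs, hx]
    · simp [hs, hx]; linarith

omit [DecidableEq n] in
lemma re_trace_conjTranspose (A : Matrix n n ℂ) : (Aᴴ).trace.re = A.trace.re := by
  rw [trace_conjTranspose]; simp

/-- Duality bound for the trace norm. -/
lemma re_trace_mul_le_traceNorm (X S : Matrix n n ℂ) (hS : (1 - Sᴴ * S).PosSemidef) :
    (S * X).trace.re ≤ (CFC.sqrt (Xᴴ * X)).trace.re := by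
  set R := CFC.sqrt (Xᴴ * X) with hRdef
  have hR : R.PosSemidef := (CFC.sqrt_nonneg _).posSemidef
  have hRR : R * R = Xᴴ * X :=
    CFC.sqrt_mul_sqrt_self _ (posSemidef_conjTranspose_mul_self X).nonneg
  obtain ⟨G, hG, hc, h1, h2⟩ := exists_pinv hR.1
  have hX : X * G * R = X := by
    have h0 : (X * G * R - X)ᴴ * (X * G * R - X) = 0 := by
      have e1 : (X * G * R - X)ᴴ * (X * G * R - X)
          = (R * G - 1) * (Xᴴ * X) * (G * R - 1) := by
        simp only [conjTranspose_sub, conjTranspose_mul, hG.eq, hR.1.eq]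
        noncomm_ring
      have e2 : (R * G - 1) * R = 0 := by
        rw [Matrix.sub_mul, h1, Matrix.one_mul, sub_self]
      rw [e1, ← hRR, ← Matrix.mul_assoc, e2, Matrix.zero_mul, Matrix.zero_mul]
    exact sub_eq_zero.mp (conjTranspose_mul_self_eq_zero.mp h0)
  set C := S * (X * G) with hC
  have hCC : (1 - Cᴴ * C).PosSemidef := by
    have e1 : 1 - Cᴴ * C = (X * G)ᴴ * (1 - Sᴴ * S) * (X * G) + (1 - G * R)ᴴ * (1 - G * R) := by
      have e2 : (X * G)ᴴ * (X * G) = G * R := by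
        rw [conjTranspose_mul, hG.eq, Matrix.mul_assoc, ← Matrix.mul_assoc Xᴴ, ← hRR,
          Matrix.mul_assoc R R G, hc, ← Matrix.mul_assoc R, h1]
      have e3 : (1 - G * R)ᴴ * (1 - G * R) = 1 - G * R := by
        rw [conjTranspose_sub, conjTranspose_one, conjTranspose_mul, hG.eq, hR.1.eq, hc,
          Matrix.sub_mul, Matrix.one_mul, Matrix.mul_sub, Matrix.mul_one,
          ← Matrix.mul_assoc (G * R), h2, sub_self, sub_zero]
      rw [e3, Matrix.mul_sub, Matrix.sub_mul, Matrix.mul_one, e2, hC, conjTranspose_mul S]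
      simp only [Matrix.mul_assoc]
      abel
    rw [e1]
    exact (hS.conjTranspose_mul_mul_same _).add (posSemidef_conjTranspose_mul_self _)
  have hSX : S * X = C * R := by
    rw [hC, Matrix.mul_assoc S, hX]
  have t1 : 0 ≤ ((1 - C) * R * (1 - C)ᴴ).trace.re :=
    (Complex.nonneg_iff.mp (hR.mul_mul_conjTranspose_same _).trace_nonneg).1
  have t2 := trace_mul_nonneg hCC hR
  have e4 : ((1 - C) * R * (1 - C)ᴴ).trace
      = R.trace - (C * R).trace - ((C * R)ᴴ).trace + (Cᴴ * C * R).trace := by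
    rw [conjTranspose_sub, conjTranspose_one, conjTranspose_mul C R, hR.1.eq]
    simp only [Matrix.sub_mul, Matrix.mul_sub, Matrix.one_mul, Matrix.mul_one, trace_sub]
    rw [trace_mul_cycle C R Cᴴ]
    ring
  rw [e4] at t1
  rw [Matrix.sub_mul, Matrix.one_mul, trace_sub] at t2
  simp only [Complex.add_re, Complex.sub_re, re_trace_conjTranspose] at t1 t2
  rw [hSX]
  linarith

/-- The Powers-Stormer inequality with an explicit test operator. -/
lemma powers_stormer {R0 R1 : Matrix n n ℂ} (h0 : R0.PosSemidef) (h1 : R1.PosSemidef) :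
    ∃ S : Matrix n n ℂ, S.IsHermitian ∧ S * S = 1 ∧
      (R0 * R0).trace.re + (R1 * R1).trace.re - 2 * (R0 * R1).trace.re
        ≤ (S * (R0 * R0 - R1 * R1)).trace.re := by
  obtain ⟨S, hS, hSS, hc, hp, hm⟩ := exists_sign (h0.1.sub h1.1)
  refine ⟨S, hS, hSS, ?_⟩
  have t1 := trace_mul_nonneg hp h1
  have t2 := trace_mul_nonneg hm h0
  have e1 : (S * (R0 * R1)).trace = (S * (R1 * R0)).trace := by
    have e2 : (S * (R0 - R1) * R1).trace = ((R0 - R1) * S * R1).trace := by rw [hc]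
    rw [trace_mul_cycle (R0 - R1) S R1, trace_mul_cycle R1 (R0 - R1) S] at e2
    simp only [Matrix.mul_sub, Matrix.sub_mul, trace_sub, Matrix.mul_assoc] at e2
    linear_combination e2
  have e3 : (R1 * R0).trace = (R0 * R1).trace := trace_mul_comm _ _
  simp only [Matrix.mul_sub, Matrix.sub_mul, Matrix.add_mul, trace_sub, trace_add,
    Matrix.mul_assoc, Complex.add_re, Complex.sub_re] at t1 t2 ⊢
  rw [e1] at t1
  rw [e3] at t2
  linarith

end cfc

/-- `Γ` is dominated by the pair `(D0, D1)`. -/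
def Dom (D0 Γ D1 : Matrix n n ℂ) : Prop := ∀ x y, 2 * qf Γ y x ≤ qf D0 x x + qf D1 y y

lemma Dom.congr {D0 Γ D1 : Matrix n n ℂ} (h : Dom D0 Γ D1) (X : Matrix n m ℂ) :
    Dom (Xᴴ * D0 * X) (Xᴴ * Γ * X) (Xᴴ * D1 * X) := fun x y => by
  simp only [qf_congr]
  exact h _ _

lemma Dom.sum {ι : Type} (s : Finset ι) {D0 Γ D1 : ι → Matrix n n ℂ}
    (h : ∀ i, Dom (D0 i) (Γ i) (D1 i)) :
    Dom (∑ i ∈ s, D0 i) (∑ i ∈ s, Γ i) (∑ i ∈ s, D1 i) := fun x y => by
  simp only [qf_sum, Finset.mul_sum, ← Finset.sum_add_distrib]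
  exact Finset.sum_le_sum fun i _ => h i x y

lemma Dom.mono {D0 Γ D1 E0 E1 : Matrix n n ℂ} (h : Dom D0 Γ D1) (h0 : (E0 - D0).PosSemidef)
    (h1 : (E1 - D1).PosSemidef) : Dom E0 Γ E1 := fun x y => by
  have := h x y
  have := qf_le_of_posSemidef h0 x
  have := qf_le_of_posSemidef h1 y
  linarith

lemma Dom.of_gram [DecidableEq m] (W0 W1 : Matrix m n ℂ) :
    Dom (W0ᴴ * W0) (W1ᴴ * W0) (W1ᴴ * W1) := fun x y => by
  have h : 0 ≤ (star (W0 *ᵥ x - W1 *ᵥ y) ⬝ᵥ (W0 *ᵥ x - W1 *ᵥ y)).re :=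
    (Complex.nonneg_iff.mp (dotProduct_star_self_nonneg _)).1
  have e : ∀ (A B : Matrix m n ℂ) (u v : n → ℂ),
      qf (Aᴴ * B) u v = (star (A *ᵥ u) ⬝ᵥ (B *ᵥ v)).re := fun A B u v => by
    simp only [qf, star_mulVec, dotProduct_mulVec, vecMul_vecMul]
  have e2 : (star (W0 *ᵥ x) ⬝ᵥ (W1 *ᵥ y)).re = (star (W1 *ᵥ y) ⬝ᵥ (W0 *ᵥ x)).re := by
    rw [star_dotProduct]; simp
  simp only [star_sub, sub_dotProduct, dotProduct_sub, Complex.sub_re] at h
  simp only [e]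
  linarith

/-- If everything is symmetric, the Hermitian part is dominated as well. -/
lemma Dom.herm {D0 B D1 : Matrix n n ℂ} (h : Dom D0 B D1) (h0 : D0ᵀ = D0) (hB : Bᵀ = B)
    (h1 : D1ᵀ = D1) : Dom D0 (((1 / 2 : ℝ) : ℂ) • (B + Bᴴ)) D1 := fun x y => by
  have a1 := h x y
  have a2 := h (star x) (star y)
  rw [← qf_transpose, ← qf_transpose, ← qf_transpose, h0, hB, h1] at a2
  rw [qf_smul, qf_add, qf_conjTranspose]
  linarith

section gm

variable [DecidableEq n] [DecidableEq m]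

lemma le_of_sq_le {H M : Matrix n n ℂ} (hH : H.IsHermitian) (hM : M.PosSemidef)
    (h : Dom 1 H (M * M)) : (M - H).PosSemidef := by
  have hZ : (M - H).IsHermitian := hM.1.sub hH
  rw [hZ.posSemidef_iff_eigenvalues_nonneg]
  intro i
  by_contra hneg
  have hneg : hZ.eigenvalues i < 0 := not_le.mp hneg
  set μ := hZ.eigenvalues i with hμ
  set v : n → ℂ := (hZ.eigenvectorBasis i).ofLp with hv
  have hv1 : (M - H) *ᵥ v = (μ : ℂ) • v := by
    have := hZ.mulVec_eigenvectorBasis i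
    rw [hv, this]
    rfl
  have hv0 : v ≠ 0 := by
    intro h0
    apply (hZ.eigenvectorBasis).orthonormal.ne_zero i
    ext j
    exact congrFun h0 j
  have hHv : H *ᵥ v = M *ᵥ v - (μ : ℂ) • v := by
    rw [← hv1, sub_mulVec]; abel
  have a1 := h (H *ᵥ v) v
  have hvv : 0 < (star v ⬝ᵥ v).re := (Complex.pos_iff.mp (dotProduct_star_self_pos_iff.mpr hv0)).1
  have e1 : qf H v (H *ᵥ v) = (star (H *ᵥ v) ⬝ᵥ (H *ᵥ v)).re := by
    simp only [qf, star_mulVec, hH.eq, dotProduct_mulVec]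
  have e2 : qf 1 (H *ᵥ v) (H *ᵥ v) = (star (H *ᵥ v) ⬝ᵥ (H *ᵥ v)).re := by
    simp only [qf, one_mulVec]
  have e3 : qf (M * M) v v = (star (M *ᵥ v) ⬝ᵥ (M *ᵥ v)).re := by
    simp only [qf, star_mulVec, hM.1.eq, dotProduct_mulVec, vecMul_vecMul]
  have e4 : (star (M *ᵥ v) ⬝ᵥ v).re = qf M v v := by
    rw [star_dotProduct]; simp [qf]
  have e5 : (star (H *ᵥ v) ⬝ᵥ (H *ᵥ v)).re = (star (M *ᵥ v) ⬝ᵥ (M *ᵥ v)).re
      - 2 * μ * qf M v v + μ ^ 2 * (star v ⬝ᵥ v).re := by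
    rw [hHv]
    simp only [star_sub, sub_dotProduct, dotProduct_sub, star_smul, smul_dotProduct,
      dotProduct_smul, Complex.sub_re, smul_eq_mul, Complex.star_def, Complex.conj_ofReal,
      Complex.re_ofReal_mul, e4]
    unfold qf
    ring
  have a2 := qf_nonneg hM v
  rw [e1, e2, e3, e5] at a1
  nlinarith [mul_pos (mul_pos_of_neg_of_neg hneg hneg) hvv]

lemma exists_factor {s0 s1 : Matrix n n ℂ} (h0 : s0.PosDef) (h1 : s1.PosSemidef) :
    ∃ L Li N : Matrix n n ℂ, L.IsHermitian ∧ Li.IsHermitian ∧ L * Li = 1 ∧ Li * L = 1 ∧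
      N.PosSemidef ∧ s0 = L * L ∧ s1 = L * (N * N) * L := by
  set L := CFC.sqrt s0 with hL
  have hLp : L.PosSemidef := (CFC.sqrt_nonneg _).posSemidef
  have hLL : L * L = s0 := CFC.sqrt_mul_sqrt_self _ h0.posSemidef.nonneg
  have hu : IsUnit L := (CFC.isUnit_sqrt_iff s0 h0.posSemidef.nonneg).mpr h0.isUnit
  have hd : IsUnit L.det := (isUnit_iff_isUnit_det L).mp hu
  have hLi : (L⁻¹).IsHermitian := hLp.1.inv
  have hp : (L⁻¹ * s1 * L⁻¹).PosSemidef := by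
    have := h1.conjTranspose_mul_mul_same L⁻¹
    rwa [hLi.eq] at this
  refine ⟨L, L⁻¹, CFC.sqrt (L⁻¹ * s1 * L⁻¹), hLp.1, hLi, mul_nonsing_inv L hd,
    nonsing_inv_mul L hd, (CFC.sqrt_nonneg _).posSemidef, hLL.symm, ?_⟩
  rw [CFC.sqrt_mul_sqrt_self _ hp.nonneg]
  calc s1 = (L * L⁻¹) * s1 * (L⁻¹ * L) := by
        rw [mul_nonsing_inv L hd, nonsing_inv_mul L hd, Matrix.one_mul, Matrix.mul_one]
    _ = _ := by simp only [Matrix.mul_assoc]

lemma gm_posDef {s0 s1 : Matrix n n ℂ} {t0 t1 : Matrix m m ℂ} {H : Matrix (n × m) (n × m) ℂ}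
    (hs0 : s0.PosDef) (hs1 : s1.PosSemidef) (ht0 : t0.PosDef) (ht1 : t1.PosSemidef)
    (hH : H.IsHermitian) (h : Dom (s0 ⊗ₖ t0) H (s1 ⊗ₖ t1)) (g : n × m → ℂ) :
    2 * qf H g g ≤ qf (s0 ⊗ₖ t1) g g + qf (s1 ⊗ₖ t0) g g := by
  obtain ⟨L, Li, N, hL, hLi, hL1, hL2, hN, rfl, rfl⟩ := exists_factor hs0 hs1
  obtain ⟨L', Li', N', hL', hLi', hL1', hL2', hN', rfl, rfl⟩ := exists_factor ht0 ht1
  have hT : (Li ⊗ₖ Li')ᴴ = Li ⊗ₖ Li' := by rw [conjTranspose_kronecker, hLi.eq, hLi'.eq]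
  have hT' : (L ⊗ₖ L')ᴴ = L ⊗ₖ L' := by rw [conjTranspose_kronecker, hL.eq, hL'.eq]
  have a1 := h.congr (Li ⊗ₖ Li')
  have e0 : (Li ⊗ₖ Li')ᴴ * ((L * L) ⊗ₖ (L' * L')) * (Li ⊗ₖ Li') = 1 := by
    rw [hT, ← mul_kronecker_mul, ← mul_kronecker_mul, ← Matrix.mul_assoc Li, hL2,
      Matrix.one_mul, hL1, ← Matrix.mul_assoc Li', hL2', Matrix.one_mul, hL1', one_kronecker_one]
  have e1 : (Li ⊗ₖ Li')ᴴ * ((L * (N * N) * L) ⊗ₖ (L' * (N' * N') * L')) * (Li ⊗ₖ Li')
      = (N ⊗ₖ N') * (N ⊗ₖ N') := by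
    rw [hT, ← mul_kronecker_mul, ← mul_kronecker_mul, ← mul_kronecker_mul]
    congr 1
    · calc Li * (L * (N * N) * L) * Li = (Li * L) * (N * N) * (L * Li) := by
            simp only [Matrix.mul_assoc]
        _ = _ := by rw [hL1, hL2, Matrix.one_mul, Matrix.mul_one]
    · calc Li' * (L' * (N' * N') * L') * Li' = (Li' * L') * (N' * N') * (L' * Li') := by
            simp only [Matrix.mul_assoc]
        _ = _ := by rw [hL1', hL2', Matrix.one_mul, Matrix.mul_one]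
  rw [e0, e1] at a1
  have a2 := le_of_sq_le (isHermitian_conjTranspose_mul_mul (Li ⊗ₖ Li') hH)
    (hN.kronecker hN') a1
  have a3 := posSemidef_conjTranspose_mul_self
    (N ⊗ₖ (1 : Matrix m m ℂ) - (1 : Matrix n n ℂ) ⊗ₖ N')
  have e2 : (N ⊗ₖ (1 : Matrix m m ℂ) - (1 : Matrix n n ℂ) ⊗ₖ N')ᴴ *
      (N ⊗ₖ (1 : Matrix m m ℂ) - (1 : Matrix n n ℂ) ⊗ₖ N')
      = (N * N) ⊗ₖ (1 : Matrix m m ℂ) + (1 : Matrix n n ℂ) ⊗ₖ (N' * N') - N ⊗ₖ N' - N ⊗ₖ N' := by
    rw [conjTranspose_sub, conjTranspose_kronecker, conjTranspose_kronecker, hN.1.eq, hN'.1.eq,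
      conjTranspose_one, conjTranspose_one]
    simp only [Matrix.sub_mul, Matrix.mul_sub, ← mul_kronecker_mul, Matrix.one_mul,
      Matrix.mul_one]
    abel
  rw [e2] at a3
  have b2 := qf_nonneg a2 ((L ⊗ₖ L') *ᵥ g)
  have b3 := qf_nonneg a3 ((L ⊗ₖ L') *ᵥ g)
  rw [qf_sub, qf_congr, mulVec_mulVec, ← mul_kronecker_mul, hL2, hL2', one_kronecker_one,
    one_mulVec] at b2
  rw [qf_sub, qf_sub, qf_add, ← qf_congr (L ⊗ₖ L') ((N * N) ⊗ₖ (1 : Matrix m m ℂ)),
    ← qf_congr (L ⊗ₖ L') ((1 : Matrix n n ℂ) ⊗ₖ (N' * N')), hT'] at b3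
  simp only [← mul_kronecker_mul, Matrix.mul_one] at b3
  linarith

lemma gm {s0 s1 : Matrix n n ℂ} {t0 t1 : Matrix m m ℂ} {H : Matrix (n × m) (n × m) ℂ}
    (hs0 : s0.PosSemidef) (hs1 : s1.PosSemidef) (ht0 : t0.PosSemidef) (ht1 : t1.PosSemidef)
    (hH : H.IsHermitian) (h : Dom (s0 ⊗ₖ t0) H (s1 ⊗ₖ t1)) (g : n × m → ℂ) :
    2 * qf H g g ≤ qf (s0 ⊗ₖ t1) g g + qf (s1 ⊗ₖ t0) g g := by
  set c := qf ((1 : Matrix n n ℂ) ⊗ₖ t1) g g + qf (s1 ⊗ₖ (1 : Matrix m m ℂ)) g g with hc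
  have hc0 : 0 ≤ c := add_nonneg (qf_nonneg (PosSemidef.one.kronecker ht1) g)
    (qf_nonneg (hs1.kronecker PosSemidef.one) g)
  have key : ∀ δ : ℝ, 0 < δ →
      2 * qf H g g ≤ qf (s0 ⊗ₖ t1) g g + qf (s1 ⊗ₖ t0) g g + δ * c := by
    intro δ hδ
    have hδ' : (0 : ℂ) < (δ : ℂ) := by exact_mod_cast hδ
    have p1 : ((δ : ℂ) • (1 : Matrix n n ℂ)).PosDef := PosDef.one.smul hδ'
    have p2 : ((δ : ℂ) • (1 : Matrix m m ℂ)).PosDef := PosDef.one.smul hδ'
    have hd : Dom ((s0 + (δ : ℂ) • 1) ⊗ₖ (t0 + (δ : ℂ) • 1)) H (s1 ⊗ₖ t1) := by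
      refine h.mono ?_ (by simpa using PosSemidef.zero)
      have e : (s0 + (δ : ℂ) • 1) ⊗ₖ (t0 + (δ : ℂ) • 1) - s0 ⊗ₖ t0
          = s0 ⊗ₖ ((δ : ℂ) • (1 : Matrix m m ℂ))
            + ((δ : ℂ) • (1 : Matrix n n ℂ)) ⊗ₖ (t0 + (δ : ℂ) • 1) := by
        rw [add_kronecker, kronecker_add]
        abel
      rw [e]
      exact (hs0.kronecker p2.posSemidef).add
        (p1.posSemidef.kronecker (ht0.add p2.posSemidef))
    have := gm_posDef (PosDef.posSemidef_add hs0 p1) hs1 (PosDef.posSemidef_add ht0 p2) ht1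
      hH hd g
    rw [add_kronecker, kronecker_add, smul_kronecker, kronecker_smul, qf_add, qf_add, qf_smul,
      qf_smul] at this
    rw [hc]
    linarith
  refine le_of_forall_pos_le_add fun ε hε => ?_
  have h1 := key (ε / (c + 1)) (by positivity)
  have h2 : ε / (c + 1) * c ≤ ε := by
    rw [div_mul_eq_mul_div, div_le_iff₀ (by positivity)]
    nlinarith
  linarith

end gm

end Vale.Agent.P372
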