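import Mathlib

/-! A verified checker for all minors of a matrix modulo a prime, and transfer to characteristic
zero. -/

namespace Vale.Agent.P372

/-- One elimination step on a column. -/
def elimCol (p a : ℕ) (P : List ℕ) (Q : List ℕ) : List ℕ :=
  List.zipWith (fun x y => (a * y + (p - Q.headD 0 % p) * x) % p) P Q.tail

/-- Run through the possible pivot columns. -/
def goCols (p : ℕ) (f : List (List ℕ) → Bool) : List (List ℕ) → Bool
  | [] => true
  | P :: rest => (P.headD 0 % p != 0) && f (rest.map (elimCol p (P.headD 0) P.tail))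
      && goCols p f rest

/-- Check that all minors are nonzero modulo `p`. -/
def chk (p : ℕ) : ℕ → List (List ℕ) → Bool
  | 0 => fun _ => true
  | r + 1 => fun cols => cols.isEmpty || (chk p r (cols.map List.tail) && goCols p (chk p r) cols)

section sound

variable {k : Type} [Field k]

/-- Pairing of a column with a sequence. -/
def dot : List ℕ → (ℕ → k) → k
  | [], _ => 0
  | a :: l, u => (a : k) * u 0 + dot l fun i => u (i + 1)

open Classical in
/-- Number of nonzero entries among the first `r`. -/
noncomputable def wt : ℕ → (ℕ → k) → ℕ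
  | 0, _ => 0
  | r + 1, u => (if u 0 = 0 then 0 else 1) + wt r fun i => u (i + 1)

lemma dot_eq_zero_of_wt : ∀ (r : ℕ) (l : List ℕ) (u : ℕ → k), l.length = r → wt r u = 0 →
    dot l u = 0
  | 0, [], _, _, _ => rfl
  | r + 1, a :: l, u, hl, hw => by
    simp only [wt, Nat.add_eq_zero_iff, ite_eq_left_iff, one_ne_zero, imp_false, not_not] at hw
    simp only [dot, hw.1, mul_zero, zero_add]
    exact dot_eq_zero_of_wt r l _ (by simpa using hl) hw.2

lemma dot_zipWith (p : ℕ) [CharP k p] (hp : 0 < p) (a b : ℕ) :
    ∀ (P Q : List ℕ) (u : ℕ → k), P.length = Q.length →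
      dot (List.zipWith (fun x y => (a * y + (p - b % p) * x) % p) P Q) u
        = (a : k) * dot Q u - (b : k) * dot P u
  | [], [], _, _ => by simp [dot]
  | x :: P, y :: Q, u, h => by
    simp only [List.zipWith_cons_cons, dot]
    rw [dot_zipWith p hp a b P Q _ (by simpa using h)]
    have e1 : ∀ n : ℕ, ((n % p : ℕ) : k) = n := fun n => (CharP.cast_eq_mod k p n).symm
    rw [e1, Nat.cast_add, Nat.cast_mul, Nat.cast_mul, Nat.cast_sub (Nat.mod_lt b hp).le, e1,
      CharP.cast_eq_zero k p]
    ring

open Classical in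
theorem chk_sound (p : ℕ) [CharP k p] (hp : 0 < p) :
    ∀ (r : ℕ) (cols : List (List ℕ)), (∀ c ∈ cols, c.length = r) → chk p r cols = true →
      ∀ u : ℕ → k, 0 < wt r u → cols.countP (fun c => decide (dot c u = 0)) < wt r u
  | 0, _, _, _, u, hu => by simp [wt] at hu
  | r + 1, cols, hl, hc, u, hu => by
    simp only [chk, Bool.or_eq_true, Bool.and_eq_true, List.isEmpty_iff] at hc
    rcases hc with rfl | ⟨hc1, hc2⟩
    · simpa using hu
    have hsplit : ∀ c : List ℕ, c.length = r + 1 →
        dot c u = (c.headD 0 : k) * u 0 + dot c.tail fun i => u (i + 1) := by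
      intro c hc
      cases c with
      | nil => simp at hc
      | cons a l => rfl
    by_cases h0 : u 0 = 0
    · have hw : wt (r + 1) u = wt r fun i => u (i + 1) := by simp [wt, h0]
      rw [hw] at hu ⊢
      have ih := chk_sound p hp r (cols.map List.tail) (by
        intro c hc
        obtain ⟨c', hc', rfl⟩ := List.mem_map.mp hc
        simp [hl c' hc']) hc1 _ hu
      rw [List.countP_map] at ih
      refine lt_of_eq_of_lt (List.countP_congr fun c hc => ?_) ih
      simp [hsplit c (hl c hc), h0]
    · have hw : wt (r + 1) u = 1 + wt r fun i => u (i + 1) := by simp [wt, h0]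
      rw [hw]
      clear hc1 hu hw
      induction cols with
      | nil => simp
      | cons P rest ihc =>
        simp only [goCols, Bool.and_eq_true, bne_iff_ne, ne_eq] at hc2
        obtain ⟨⟨hP0, hf⟩, hrest⟩ := hc2
        have hlP : P.length = r + 1 := hl P (by simp)
        have hlr : ∀ c ∈ rest, c.length = r + 1 := fun c hc => hl c (by simp [hc])
        by_cases hd : dot P u = 0
        · have ha : ((P.headD 0 : ℕ) : k) ≠ 0 := by
            rw [Ne, CharP.cast_eq_zero_iff k p]
            exact fun h => hP0 (Nat.mod_eq_zero_of_dvd h)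
          have hpos : 0 < wt r fun i => u (i + 1) := by
            by_contra hz
            have hz' : (wt r fun i => u (i + 1)) = 0 := by omega
            have := dot_eq_zero_of_wt r P.tail _ (by simp [hlP]) hz'
            rw [hsplit P hlP, this, add_zero] at hd
            exact mul_ne_zero ha h0 hd
          have ih := chk_sound p hp r (rest.map (elimCol p (P.headD 0) P.tail)) (by
            intro c hc
            obtain ⟨c', hc', rfl⟩ := List.mem_map.mp hc
            simp [elimCol, hlP, hlr c' hc']) hf _ hpos
          rw [List.countP_map] at ih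
          have e : rest.countP (fun c => decide (dot c u = 0))
              = rest.countP ((fun c => decide (dot c (fun i => u (i + 1)) = 0)) ∘
                elimCol p (P.headD 0) P.tail) := by
            refine List.countP_congr fun c hc => ?_
            have e1 := dot_zipWith (k := k) p hp (P.headD 0) (c.headD 0) P.tail c.tail
              (fun i => u (i + 1)) (by simp [hlP, hlr c hc])
            have e2 : dot (elimCol p (P.headD 0) P.tail c) (fun i => u (i + 1))
                = (P.headD 0 : k) * dot c u := by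
              unfold elimCol
              rw [e1, hsplit c (hlr c hc)]
              rw [hsplit P hlP] at hd
              linear_combination (-(c.headD 0 : k)) * hd
            simp only [Function.comp_apply, e2, mul_eq_zero, ha, false_or]
          rw [List.countP_cons, e]
          simp only [hd, decide_true, if_true]
          omega
        · rw [List.countP_cons]
          simp only [hd, decide_false, Bool.false_eq_true, if_false, add_zero]
          exact ihc hlr hrest

lemma wt_add_le : ∀ (r : ℕ) (u v : ℕ → k), (∀ i < r, u i * v i = 0) → wt r u + wt r v ≤ r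
  | 0, _, _, _ => by simp [wt]
  | r + 1, u, v, h => by
    have ih := wt_add_le r (fun i => u (i + 1)) (fun i => v (i + 1))
      fun i hi => h (i + 1) (by omega)
    have h0 := mul_eq_zero.mp (h 0 (by omega))
    simp only [wt]
    rcases h0 with h0 | h0 <;> simp only [h0, if_true] <;> split_ifs <;> omega

lemma wt_pos : ∀ (r : ℕ) (u : ℕ → k), (∃ i < r, u i ≠ 0) → 0 < wt r u
  | 0, _, ⟨_, hi, _⟩ => by omega
  | r + 1, u, ⟨i, hi, hu⟩ => by
    simp only [wt]
    cases i with
    | zero => simp [hu]
    | succ i =>
      have := wt_pos r (fun i => u (i + 1)) ⟨i, by omega, hu⟩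
      omega

open Classical in
lemma length_le_countP (u v : ℕ → k) : ∀ cols : List (List ℕ),
    (∀ c ∈ cols, dot c u * dot c v = 0) →
      cols.length ≤ cols.countP (fun c => decide (dot c u = 0))
        + cols.countP (fun c => decide (dot c v = 0))
  | [], _ => by simp
  | c :: cols, h => by
    have ih := length_le_countP u v cols fun c hc => h c (by simp [hc])
    have h0 := mul_eq_zero.mp (h c (by simp))
    simp only [List.countP_cons, List.length_cons, decide_eq_true_eq]
    rcases h0 with h0 | h0 <;> simp only [h0, if_true] <;> split_ifs <;> omega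

theorem no_pair (p : ℕ) [CharP k p] (hp : 0 < p) (r : ℕ) (cols : List (List ℕ))
    (hl : ∀ c ∈ cols, c.length = r) (hc : chk p r cols = true) (hn : r ≤ cols.length + 1)
    (u v : ℕ → k) (hu : ∃ i < r, u i ≠ 0) (hv : ∃ i < r, v i ≠ 0)
    (h1 : ∀ i < r, u i * v i = 0) (h2 : ∀ c ∈ cols, dot c u * dot c v = 0) : False := by
  have a1 := chk_sound p hp r cols hl hc u (wt_pos r u hu)
  have a2 := chk_sound p hp r cols hl hc v (wt_pos r v hv)
  have a3 := wt_add_le r u v h1
  have a4 := length_le_countP u v cols h2
  omega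

lemma dot_eq_sum : ∀ (n : ℕ) (l : List ℕ) (u : ℕ → k), l.length = n →
    dot l u = ∑ i : Fin n, (l.getD i 0 : k) * u i
  | 0, [], _, _ => by simp [dot]
  | n + 1, a :: l, u, h => by
    rw [Fin.sum_univ_succ, dot, dot_eq_sum n l _ (by simpa using h)]
    simp

end sound

section transfer

lemma exists_valuationSubring (p : ℕ) (hp : 1 < p) :
    ∃ B : ValuationSubring ℂ, (p : ℂ) ∈ B.nonunits := by
  have hI : Ideal.span {(p : (⊥ : Subring ℂ))} ≠ ⊤ := by
    rw [Ne, Ideal.span_singleton_eq_top, isUnit_iff_exists_inv]
    rintro ⟨⟨x, hx⟩, h⟩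
    obtain ⟨n, rfl⟩ := Subring.mem_bot.mp hx
    have h1 : (p : ℂ) * (n : ℂ) = 1 := by simpa using congrArg Subtype.val h
    have h2 : (p : ℤ) * n = 1 := by exact_mod_cast h1
    have h3 : (p : ℤ) ∣ 1 := ⟨n, h2.symm⟩
    have h4 : p ∣ 1 := by exact_mod_cast h3
    have := Nat.le_of_dvd one_pos h4
    omega
  obtain ⟨B, -, hB⟩ := Ideal.image_subset_nonunits_valuationSubring _ hI
  exact ⟨B, hB ⟨_, Ideal.mem_span_singleton_self _, by simp⟩⟩

lemma exists_normalize (B : ValuationSubring ℂ) {n : ℕ} (u : Fin n → ℂ) (hu : u ≠ 0) :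
    ∃ (c : ℂ) (u' : Fin n → B) (i : Fin n), u' i = 1 ∧ ∀ j, (u' j : ℂ) = c * u j := by
  obtain ⟨j0, hj0⟩ := Function.ne_iff.mp hu
  obtain ⟨i, -, hi⟩ := Finset.exists_max_image Finset.univ (fun j => B.valuation (u j))
    ⟨j0, Finset.mem_univ _⟩
  have hv0 : B.valuation (u i) ≠ 0 := by
    intro h0
    have := hi j0 (Finset.mem_univ _)
    rw [h0, le_zero_iff, map_eq_zero] at this
    exact hj0 this
  have hui : u i ≠ 0 := fun h0 => hv0 (by simp [h0])
  refine ⟨(u i)⁻¹, fun j => ⟨(u i)⁻¹ * u j, ?_⟩, i, ?_, fun j => rfl⟩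
  · rw [← B.valuation_le_one_iff, map_mul, map_inv₀, inv_mul_le_iff₀ (zero_lt_iff.mpr hv0),
      mul_one]
    exact hi j (Finset.mem_univ _)
  · ext
    simp [hui]

theorem transfer (p : ℕ) (hp : p.Prime) {ι : Type} {n : ℕ} (Λ : ι → Fin n → Fin n → ℤ)
    (h : ∀ (k : Type) [Field k] [CharP k p] (u v : Fin n → k), u ≠ 0 → v ≠ 0 →
      ¬ ∀ j, ∑ m, ∑ m', (Λ j m m' : k) * u m * v m' = 0)
    (u v : Fin n → ℂ) (hu : u ≠ 0) (hv : v ≠ 0) :
    ¬ ∀ j, ∑ m, ∑ m', (Λ j m m' : ℂ) * u m * v m' = 0 := by
  intro H
  obtain ⟨B, hB⟩ := exists_valuationSubring p hp.one_lt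
  obtain ⟨c, u', i, hi, hu'⟩ := exists_normalize B u hu
  obtain ⟨d, v', i', hi', hv'⟩ := exists_normalize B v hv
  have hp0 : ((p : ℕ) : IsLocalRing.ResidueField B) = 0 := by
    have : ((p : B) : ℂ) ∈ B.nonunits := by simpa using hB
    rw [ValuationSubring.coe_mem_nonunits_iff] at this
    rw [← map_natCast (IsLocalRing.residue B), IsLocalRing.residue_eq_zero_iff]
    exact this
  have : Fact p.Prime := ⟨hp⟩
  have : CharP (IsLocalRing.ResidueField B) p := (CharP.charP_iff_prime_eq_zero hp).mpr hp0
  refine h (IsLocalRing.ResidueField B) (fun m => IsLocalRing.residue B (u' m))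
    (fun m => IsLocalRing.residue B (v' m)) ?_ ?_ fun j => ?_
  · intro h0
    have := congrFun h0 i
    simp [hi] at this
  · intro h0
    have := congrFun h0 i'
    simp [hi'] at this
  · have e : (∑ m, ∑ m', (Λ j m m' : B) * u' m * v' m') = 0 := by
      apply Subtype.val_injective
      have := H j
      simp only [AddSubmonoidClass.coe_finsetSum, MulMemClass.coe_mul, hu', hv',
        ZeroMemClass.coe_zero, SubringClass.coe_intCast]
      calc ∑ m, ∑ m', (Λ j m m' : ℂ) * (c * u m) * (d * v m')
          = c * d * ∑ m, ∑ m', (Λ j m m' : ℂ) * u m * v m' := by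
            simp only [Finset.mul_sum]
            refine Finset.sum_congr rfl fun m _ => Finset.sum_congr rfl fun m' _ => ?_
            ring
        _ = 0 := by rw [this, mul_zero]
    have := congrArg (IsLocalRing.residue B) e
    simpa using this

end transfer

end Vale.Agent.P372
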